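import Vale.Agent.P070.Unique

/-! Construction of the larger algebra inside a representation of the algebra of bounded
sequences that kills eventually zero sequences. -/

set_option linter.unusedSimpArgs false

namespace Vale.Agent.P070

open scoped InnerProductSpace ComplexOrder BoundedContinuousFunction
open Filter Topology

variable {A₀ : Type} [CStarAlgebra A₀] {H₀ : Type} [NormedAddCommGroup H₀]
  [InnerProductSpace ℂ H₀] [CompleteSpace H₀]

lemma exists_ambient (ρ : A₀ →⋆ₐ[ℂ] (H₀ →L[ℂ] H₀)) (ξ : H₀) (hξ : ‖ξ‖ = 1) :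
    ∃ (H : Type) (_ : NormedAddCommGroup H) (_ : InnerProductSpace ℂ H) (_ : CompleteSpace H)
      (q : (ℕ →ᵇ A₀) →⋆ₐ[ℂ] (H →L[ℂ] H)) (Ω : H), ‖Ω‖ = 1 ∧
      (∀ x : ℕ →ᵇ A₀, (∀ᶠ n in atTop, x n = 0) → q x = 0) ∧
      ∀ (x : ℕ →ᵇ A₀) (a : A₀), (∀ n, x n = a) → ⟪Ω, q x Ω⟫_ℂ = ⟪ξ, ρ a ξ⟫_ℂ := by
  let := CStarAlgebra.spectralOrder (ℕ →ᵇ A₀)
  have := CStarAlgebra.spectralOrderedRing (ℕ →ᵇ A₀)
  let U : Ultrafilter ℕ := hyperfilter ℕ
  have hU : (U : Filter ℕ) ≤ atTop := Nat.hyperfilter_le_atTop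
  have hex : ∀ x : ℕ →ᵇ A₀, ∃ c : ℂ, Tendsto (fun n => ⟪ξ, ρ (x n) ξ⟫_ℂ) U (𝓝 c) := by
    intro x
    obtain ⟨c, -, hc⟩ := (isCompact_closedBall (0 : ℂ) ‖x‖).ultrafilter_le_nhds
      (U.map fun n => ⟪ξ, ρ (x n) ξ⟫_ℂ) (by
        rw [le_principal_iff, Ultrafilter.mem_coe, Ultrafilter.mem_map]
        refine univ_mem' fun n => ?_
        simp only [Set.mem_preimage, mem_closedBall_zero_iff]
        refine (norm_inner_le_norm _ _).trans ?_
        have := norm_rep_apply_le ρ (x n) ξ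
        rw [hξ, mul_one] at this
        rw [hξ, one_mul]
        exact this.trans (x.norm_coe_le_norm n))
    exact ⟨c, hc⟩
  choose ω hω using hex
  let ωl : (ℕ →ᵇ A₀) →ₗ[ℂ] ℂ :=
    { toFun := ω
      map_add' := fun x y => by
        refine tendsto_nhds_unique (hω (x + y)) ?_
        simpa [inner_add_right] using (hω x).add (hω y)
      map_smul' := fun c x => by
        refine tendsto_nhds_unique (hω (c • x)) ?_
        simpa [inner_smul_right] using (hω x).const_mul c }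
  have hpos : ∀ x, 0 ≤ x → 0 ≤ ωl x := by
    intro x hx
    obtain ⟨b, rfl⟩ := CStarAlgebra.nonneg_iff_eq_star_mul_self.mp hx
    refine ge_of_tendsto' (hω _) fun n => ?_
    have e : (star b * b) n = star (b n) * b n := rfl
    rw [e, rep_mul_apply, ← inner_rep_left]
    rw [inner_self_eq_norm_sq_to_K]
    exact pow_nonneg (Complex.zero_le_real.mpr (norm_nonneg (ρ (b n) ξ))) 2
  let f : (ℕ →ᵇ A₀) →ₚ[ℂ] ℂ := PositiveLinearMap.mk₀ ωl hpos
  have hf : ∀ x, f x = ω x := fun _ => rfl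
  have hconst : ∀ (x : ℕ →ᵇ A₀) (a : A₀), (∀ n, x n = a) → f x = ⟪ξ, ρ a ξ⟫_ℂ := fun x a h => by
    refine tendsto_nhds_unique (hω x) ?_
    simp only [h]
    exact tendsto_const_nhds
  have hzero : ∀ x : ℕ →ᵇ A₀, (∀ᶠ n in atTop, x n = 0) → f x = 0 := fun x h => by
    refine tendsto_nhds_unique (hω x) (tendsto_const_nhds.congr' ?_)
    filter_upwards [hU h] with n hn
    have hn' : x n = 0 := hn
    simp [hn']
  have happ : ∀ (x : ℕ →ᵇ A₀) (b : f.PreGNS), f.gnsStarAlgHom x (b : f.GNS) =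
      ((f.toPreGNS (x * f.ofPreGNS b) : f.PreGNS) : f.GNS) := fun x b =>
    f.gnsNonUnitalStarAlgHom_apply_coe
  refine ⟨f.GNS, inferInstance, inferInstance, inferInstance, f.gnsStarAlgHom,
    ((f.toPreGNS 1 : f.PreGNS) : f.GNS), ?_, fun x hx => ?_, fun x a h => ?_⟩
  · rw [UniformSpace.Completion.norm_coe, PositiveLinearMap.preGNS_norm_def]
    simp only [PositiveLinearMap.ofPreGNS_toPreGNS, star_one, mul_one]
    rw [hconst 1 1 (fun _ => rfl), map_one, one_apply_eq_self, re_inner_self, hξ]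
    simp
  · ext c
    induction c using UniformSpace.Completion.induction_on with
    | hp => exact isClosed_eq (f.gnsStarAlgHom x).continuous continuous_const
    | ih b =>
      rw [happ, zero_apply, ← norm_eq_zero, UniformSpace.Completion.norm_coe,
        PositiveLinearMap.preGNS_norm_def, hzero]
      · simp
      · filter_upwards [hx] with n hn
        have e : ∀ y z : ℕ →ᵇ A₀, (y * (x * z)) n = y n * (x n * z n) := fun _ _ => rfl
        simp only [PositiveLinearMap.ofPreGNS_toPreGNS]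
        rw [e, hn, zero_mul, mul_zero]
  · rw [happ, UniformSpace.Completion.inner_coe, PositiveLinearMap.preGNS_inner_def]
    simp only [PositiveLinearMap.ofPreGNS_toPreGNS, star_one, mul_one, one_mul]
    exact hconst x a h

lemma exists_family [Nontrivial A₀] (τ₀ : Peak A₀) :
    ∃ S : Set (Peak A₀), τ₀ ∈ S ∧ S.Pairwise Peak.Orth ∧ ∀ τ' : Peak A₀, ∃ τ ∈ S, ¬ τ'.Orth τ := by
  obtain ⟨S, hS0, hS⟩ := zorn_subset_nonempty {S : Set (Peak A₀) | S.Pairwise Peak.Orth}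
    (fun c hc hch _ => ⟨⋃₀ c, hch.pairwise_sUnion.mpr fun s hs => hc hs,
      fun s hs => Set.subset_sUnion_of_mem hs⟩) {τ₀} (Set.pairwise_singleton _ _)
  refine ⟨S, hS0 rfl, hS.prop, fun τ' => ?_⟩
  by_contra hcon
  push Not at hcon
  have hins : (insert τ' S).Pairwise Peak.Orth :=
    Set.pairwise_insert.mpr ⟨hS.prop, fun τ hτ _ => ⟨hcon τ hτ, (hcon τ hτ).symm⟩⟩
  have hmem : τ' ∈ S := hS.mem_of_prop_insert hins
  exact τ'.not_orth_self (hcon τ' hmem)

theorem exists_setup [Nontrivial A₀] (τ₀ : Peak A₀) (ρ : A₀ →⋆ₐ[ℂ] (H₀ →L[ℂ] H₀)) (ξ : H₀)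
    (hξ : ‖ξ‖ = 1) (hfix : τ₀.Fixed ρ ξ) :
    ∃ (A : Type) (_ : CStarAlgebra A) (D : Setup A₀ A) (H : Type) (_ : NormedAddCommGroup H)
      (_ : InnerProductSpace ℂ H) (_ : CompleteSpace H) (π : A →⋆ₐ[ℂ] (H →L[ℂ] H)) (Ω : H),
      ‖Ω‖ = 1 ∧ (D.τ D.i₀).Fixed (π.comp D.ι) Ω := by
  classical
  obtain ⟨H, i1, i2, i3, q, Ω, hΩ, hq0, hqc⟩ := exists_ambient ρ ξ hξ
  obtain ⟨S, hS0, hSp, hSm⟩ := exists_family τ₀
  have hlink : ∀ τ : Peak A₀, ∃ U : ℕ → A₀, (∀ n, star (U n) * U n = 1) ∧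
      (∀ n, U n * star (U n) = 1) ∧
      (∀ m n, m ≤ n → U n * (1 - τ.p m) = U m * (1 - τ.p m)) ∧
      (∀ m n, m ≤ n → (1 - τ₀.p m) * U n = U m * (1 - τ.p m)) ∧ (τ = τ₀ → ∀ n, U n = 1) := by
    intro τ
    by_cases h : τ = τ₀
    · subst h
      exact ⟨fun _ => 1, by simp, by simp, by simp, by simp, by simp⟩
    · obtain ⟨U, h1, h2, h3, h4⟩ := τ.exists_link τ₀
      exact ⟨U, h1, h2, h3, h4, fun h' => absurd h' h⟩
  choose U hU1 hU2 hU3 hU4 hU5 using hlink
  let Ub : Peak A₀ → (ℕ →ᵇ A₀) := fun τ =>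
    BoundedContinuousFunction.ofNormedAddCommGroupDiscrete (U τ) 1
      (fun n => norm_le_one_of_isometry (hU1 τ n))
  have hUb : ∀ τ n, Ub τ n = U τ n := fun _ _ => rfl
  let κ : A₀ →⋆ₐ[ℂ] (ℕ →ᵇ A₀) :=
    { toFun := fun a => BoundedContinuousFunction.const ℕ a
      map_one' := rfl
      map_mul' := fun _ _ => rfl
      map_zero' := rfl
      map_add' := fun _ _ => rfl
      commutes' := fun _ => rfl
      map_star' := fun _ => rfl }
  have hκ : ∀ a n, κ a n = a := fun _ _ => rfl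
  have hqe : ∀ x y : ℕ →ᵇ A₀, (∀ᶠ n in atTop, x n = y n) → q x = q y := fun x y h => by
    rw [← sub_eq_zero, ← map_sub]
    refine hq0 _ ?_
    filter_upwards [h] with n hn
    exact sub_eq_zero.mpr hn
  let Gen : Set (H →L[ℂ] H) := Set.range (fun a => q (κ a)) ∪ Set.range (fun τ : S => q (Ub τ))
  let B : StarSubalgebra ℂ (H →L[ℂ] H) := (StarAlgebra.adjoin ℂ Gen).topologicalClosure
  have hB : IsClosed (B : Set (H →L[ℂ] H)) := StarSubalgebra.isClosed_topologicalClosure _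
  have hGen : Gen ⊆ B := fun x hx =>
    StarSubalgebra.le_topologicalClosure _ (StarAlgebra.subset_adjoin ℂ _ hx)
  let ι : A₀ →⋆ₐ[ℂ] B := (q.comp κ).codRestrict B fun a => hGen (Or.inl ⟨a, rfl⟩)
  let u : S → B := fun τ => ⟨q (Ub τ), hGen (Or.inr ⟨τ, rfl⟩)⟩
  let D : Setup A₀ B :=
    { I := S
      τ := fun τ => τ.1
      i₀ := ⟨τ₀, hS0⟩
      orth := fun i j h => hSp i.2 j.2 fun e => h (Subtype.ext e)
      maximal := fun τ' => by
        obtain ⟨τ, h1, h2⟩ := hSm τ'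
        exact ⟨⟨τ, h1⟩, h2⟩
      ι := ι
      u := u
      hu1 := fun i => Subtype.ext (by
        show star (q (Ub i)) * q (Ub i) = 1
        rw [← map_star, ← map_mul, ← map_one q]
        exact hqe _ _ (Eventually.of_forall fun n => hU1 i n))
      hu2 := fun i => Subtype.ext (by
        show q (Ub i) * star (q (Ub i)) = 1
        rw [← map_star, ← map_mul, ← map_one q]
        exact hqe _ _ (Eventually.of_forall fun n => hU2 i n))
      hu0 := Subtype.ext (by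
        show q (Ub τ₀) = 1
        rw [← map_one q]
        exact hqe _ _ (Eventually.of_forall fun n => hU5 τ₀ rfl n))
      y := fun i m => U i m * (1 - i.1.p m)
      hy1 := fun i m => Subtype.ext (by
        show q (Ub i) * (1 - q (κ (i.1.p m))) = q (κ (U i m * (1 - i.1.p m)))
        rw [← map_one q, ← map_sub, ← map_mul]
        refine hqe _ _ ?_
        filter_upwards [eventually_ge_atTop m] with n hn
        exact hU3 i m n hn)
      hy2 := fun i m => Subtype.ext (by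
        show (1 - q (κ (τ₀.p m))) * q (Ub i) = q (κ (U i m * (1 - i.1.p m)))
        rw [← map_one q, ← map_sub, ← map_mul]
        refine hqe _ _ ?_
        filter_upwards [eventually_ge_atTop m] with n hn
        exact hU4 i m n hn)
      gen := fun T hT h1 h2 b => by
        have hcl : IsClosed (T.map B.subtype : Set (H →L[ℂ] H)) :=
          hB.isClosedEmbedding_subtypeVal.isClosedMap _ hT
        have hle : B ≤ T.map B.subtype := by
          refine StarSubalgebra.topologicalClosure_minimal (StarAlgebra.adjoin_le ?_) hcl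
          rintro _ (⟨a, rfl⟩ | ⟨τ, rfl⟩)
          · exact ⟨ι a, h1 a, rfl⟩
          · exact ⟨u τ, h2 τ, rfl⟩
        obtain ⟨c, hc, e⟩ := hle b.2
        have : c = b := Subtype.ext e
        exact this ▸ hc }
  refine ⟨B, inferInstance, D, H, i1, i2, i3, B.subtype, Ω, hΩ, fun n => ?_⟩
  show q (κ (τ₀.p n)) Ω = Ω
  have h1 : ⟪Ω, q (κ (τ₀.p n)) Ω⟫_ℂ = 1 := by
    rw [hqc _ _ (hκ _), hfix n, inner_self_eq_norm_sq_to_K, hξ]; simp
  have h2 : ‖q (κ (τ₀.p n)) Ω‖ ^ 2 = 1 := by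
    rw [norm_rep_apply_sq, ← map_star, ← map_mul, (τ₀.p_sa n).star_eq, τ₀.p_mul_p le_rfl, h1]
    simp
  have h3 : ‖Ω - q (κ (τ₀.p n)) Ω‖ ^ 2 = 0 := by
    rw [@norm_sub_sq ℂ, h1, h2, hΩ]
    simp only [RCLike.re_to_complex, Complex.one_re]
    norm_num
  have h4 : Ω - q (κ (τ₀.p n)) Ω = 0 := by simpa using h3
  exact (sub_eq_zero.mp h4).symm

end Vale.Agent.P070
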