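import Mathlib

/-! Hilbert space lemmas: Schur, the graph lemma, limits of decreasing projections, and a
density lemma for irreducible representations. -/

namespace Vale.Agent.P070

open scoped InnerProductSpace ComplexOrder
open Filter Topology

section Hilbert

variable {A : Type*} {K : Type*} [NormedAddCommGroup K] [InnerProductSpace ℂ K]

/-- No closed invariant subspace other than the trivial ones. -/
def Irr (σ : A → K →L[ℂ] K) : Prop :=
  ∀ M : Submodule ℂ K, IsClosed (M : Set K) → (∀ a, ∀ x ∈ M, σ a x ∈ M) → M = ⊥ ∨ M = ⊤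

lemma Irr.eq_zero {σ : A → K →L[ℂ] K} (h : Irr σ) {T : K →L[ℂ] K}
    (hT : ∀ a, Commute T (σ a)) {x : K} (hx : x ≠ 0) (hTx : T x = 0) : T = 0 := by
  rcases h (LinearMap.ker (T : K →ₗ[ℂ] K)) T.isClosed_ker (fun a y hy => by
      have hy' : T y = 0 := hy
      have : T (σ a y) = σ a (T y) := by
        have := congrArg (fun S : K →L[ℂ] K => S y) (hT a).eq
        simpa using this
      show T (σ a y) = 0
      rw [this, hy', map_zero]) with h0 | h0
  · exfalso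
    have : x ∈ LinearMap.ker (T : K →ₗ[ℂ] K) := hTx
    rw [h0] at this
    exact hx (by simpa using this)
  · ext y
    have : y ∈ LinearMap.ker (T : K →ₗ[ℂ] K) := h0 ▸ Submodule.mem_top
    exact this

variable [CompleteSpace K]

lemma apply_eq_zero_of_nonneg {R : K →L[ℂ] K} (hR : 0 ≤ R) {x : K}
    (hx : (⟪x, R x⟫_ℂ).re = 0) : R x = 0 := by
  obtain ⟨b, rfl⟩ := CStarAlgebra.nonneg_iff_eq_star_mul_self.mp hR
  have h1 : ⟪x, (star b * b) x⟫_ℂ = ⟪b x, b x⟫_ℂ := by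
    simp [ContinuousLinearMap.star_eq_adjoint, ContinuousLinearMap.adjoint_inner_right]
  rw [h1] at hx
  have h2 : b x = 0 := by
    have : ‖b x‖ ^ 2 = 0 := by
      rw [← hx, ← inner_self_eq_norm_sq (𝕜 := ℂ)]; rfl
    simpa using this
  simp [h2]

lemma schur_sa {σ : A → K →L[ℂ] K} (h : Irr σ) {T : K →L[ℂ] K} (hT : IsSelfAdjoint T)
    (hc : ∀ a, Commute T (σ a)) : ∃ c : ℂ, T = c • (1 : K →L[ℂ] K) := by
  rcases subsingleton_or_nontrivial K with hK | hK
  · exact ⟨0, Subsingleton.elim _ _⟩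
  obtain ⟨x, hx⟩ := exists_norm_eq K (zero_le_one (α := ℝ))
  have hx0 : x ≠ 0 := by rintro rfl; simp at hx
  set c : ℝ := (⟪x, T x⟫_ℂ).re with hcdef
  set S : K →L[ℂ] K := T - (c : ℂ) • (1 : K →L[ℂ] K) with hS
  have hSsa : IsSelfAdjoint S := by
    refine hT.sub ?_
    rw [IsSelfAdjoint, star_smul, star_one]
    simp
  have hSc : ∀ a, Commute S (σ a) := fun a =>
    (hc a).sub_left ((Commute.one_left _).smul_left _)
  have hSx : (⟪x, S x⟫_ℂ).re = 0 := by
    simp [hS, hx, hcdef]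
  suffices S = 0 from ⟨c, by rwa [hS, sub_eq_zero] at this⟩
  have hp : ∀ a, Commute (S⁺) (σ a) := fun a => by
    rw [CFC.posPart_def]; exact (hSc a).cfcₙ_real _
  by_cases hn : S⁻ = 0
  · have h0 : 0 ≤ S := (CFC.negPart_eq_zero_iff S hSsa).mp hn
    exact h.eq_zero hSc hx0 (apply_eq_zero_of_nonneg h0 hSx)
  · obtain ⟨y, hy⟩ : ∃ y, S⁻ y ≠ 0 := by
      by_contra hh
      push Not at hh
      exact hn (ContinuousLinearMap.ext hh)
    have hz : S⁺ (S⁻ y) = 0 := by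
      exact congrArg (fun R : K →L[ℂ] K => R y) (CFC.posPart_mul_negPart S)
    have hp0 : S⁺ = 0 := h.eq_zero hp hy hz
    have h0 : S ≤ 0 := (CFC.posPart_eq_zero_iff S hSsa).mp hp0
    have h0' : 0 ≤ -S := neg_nonneg.mpr h0
    have : (-S) x = 0 := apply_eq_zero_of_nonneg h0' (by simp [hSx])
    exact h.eq_zero hSc hx0 (by simpa using this)

lemma schur [Star A] {σ : A → K →L[ℂ] K} (hσ : ∀ a, σ (star a) = star (σ a)) (h : Irr σ)
    {T : K →L[ℂ] K} (hc : ∀ a, Commute T (σ a)) : ∃ c : ℂ, T = c • (1 : K →L[ℂ] K) := by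
  have hc' : ∀ a, Commute (star T) (σ a) := fun a => by
    have := (hc (star a)).star_star
    rwa [hσ, star_star] at this
  obtain ⟨c₁, h₁⟩ := schur_sa h (T := T + star T) (IsSelfAdjoint.add_star_self T)
    (fun a => (hc a).add_left (hc' a))
  obtain ⟨c₂, h₂⟩ := schur_sa h (T := Complex.I • (T - star T))
    (by
      rw [IsSelfAdjoint, star_smul, star_sub, star_star, Complex.star_def, Complex.conj_I]
      module)
    (fun a => ((hc a).sub_left (hc' a)).smul_left _)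
  refine ⟨(c₁ - Complex.I * c₂) / 2, ?_⟩
  have : T = (1 / 2 : ℂ) • ((T + star T) - Complex.I • (Complex.I • (T - star T))) := by
    rw [smul_smul, Complex.I_mul_I]
    module
  rw [this, h₁, h₂]
  module

/-- Decreasing projections converge strongly, to a vector fixed by all of them. -/
lemma proj_limit (P : ℕ → K →L[ℂ] K) (hsa : ∀ n, IsSelfAdjoint (P n))
    (hle : ∀ m n, m ≤ n → P m * P n = P n) (x : K) :
    ∃ y, Tendsto (fun n => P n x) atTop (𝓝 y) ∧ ∀ m, P m y = y := by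
  have key : ∀ m n, m ≤ n → ‖P m x - P n x‖ ^ 2 = ‖P m x‖ ^ 2 - ‖P n x‖ ^ 2 := by
    intro m n hmn
    have h1 : ⟪P m x, P n x⟫_ℂ = ⟪P n x, P n x⟫_ℂ := by
      have e1 : ∀ k, k ≤ n → ⟪P k x, P n x⟫_ℂ = ⟪x, P n x⟫_ℂ := fun k hk => by
        have := (hsa k).isSymmetric x (P n x)
        simp only [ContinuousLinearMap.coe_coe] at this
        rw [this]
        congr 1
        exact congrArg (fun R : K →L[ℂ] K => R x) (hle k n hk)
      rw [e1 m hmn, e1 n le_rfl]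
    rw [@norm_sub_sq ℂ, h1, inner_self_eq_norm_sq]
    ring
  have hanti : Antitone (fun n => ‖P n x‖ ^ 2) := fun m n hmn => by
    have := key m n hmn
    have h2 := sq_nonneg ‖P m x - P n x‖
    simp only
    linarith
  have hconv : ∃ l, Tendsto (fun n => ‖P n x‖ ^ 2) atTop (𝓝 l) :=
    ⟨_, tendsto_atTop_ciInf hanti ⟨0, by rintro _ ⟨n, rfl⟩; positivity⟩⟩
  obtain ⟨l, hl⟩ := hconv
  have hcau : CauchySeq (fun n => P n x) := by
    rw [Metric.cauchySeq_iff']
    intro ε hε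
    obtain ⟨N, hN⟩ := Metric.cauchySeq_iff'.mp hl.cauchySeq (ε ^ 2) (by positivity)
    refine ⟨N, fun n hn => ?_⟩
    have h1 := hN n hn
    rw [Real.dist_eq, abs_sub_comm] at h1
    rw [dist_comm, dist_eq_norm]
    have h2 : ‖P N x - P n x‖ ^ 2 < ε ^ 2 := by
      rw [key N n hn]; exact lt_of_le_of_lt (le_abs_self _) h1
    exact lt_of_pow_lt_pow_left₀ 2 hε.le h2
  obtain ⟨y, hy⟩ := cauchySeq_tendsto_of_complete hcau
  refine ⟨y, hy, fun m => ?_⟩
  have h1 : Tendsto (fun n => P m (P n x)) atTop (𝓝 (P m y)) := ((P m).continuous.tendsto y).comp hy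
  have h2 : Tendsto (fun n => P m (P n x)) atTop (𝓝 y) := by
    refine hy.congr' ?_
    filter_upwards [eventually_ge_atTop m] with n hn
    exact (congrArg (fun R : K →L[ℂ] K => R x) (hle m n hn)).symm
  exact tendsto_nhds_unique h1 h2

end Hilbert

section Graph

variable {A : Type*} {K₁ K₂ : Type*} [NormedAddCommGroup K₁] [InnerProductSpace ℂ K₁]
  [CompleteSpace K₁] [NormedAddCommGroup K₂] [InnerProductSpace ℂ K₂] [CompleteSpace K₂]

/-- A nonzero closed invariant subspace of the product on which both coordinates have the same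
norm is the graph of an intertwining unitary. -/
lemma graph {σ₁ : A → K₁ →L[ℂ] K₁} {σ₂ : A → K₂ →L[ℂ] K₂} (h₁ : Irr σ₁) (h₂ : Irr σ₂)
    (M : Submodule ℂ (K₁ × K₂)) (hM : IsClosed (M : Set (K₁ × K₂))) (hne : M ≠ ⊥)
    (hn : ∀ z ∈ M, ‖z.1‖ = ‖z.2‖)
    (hinv : ∀ a, ∀ z ∈ M, (σ₁ a z.1, σ₂ a z.2) ∈ M) :
    ∃ U : K₁ ≃ₗᵢ[ℂ] K₂, (∀ z ∈ M, U z.1 = z.2) ∧ ∀ a x, U (σ₁ a x) = σ₂ a (U x) := by
  have : CompleteSpace M := hM.completeSpace_coe
  let f₁ : M →ₗᵢ[ℂ] K₁ :=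
    { toLinearMap := (LinearMap.fst ℂ K₁ K₂).comp M.subtype
      norm_map' := fun z => by
        have := hn z.1 z.2
        show ‖z.1.1‖ = ‖z.1‖
        rw [Prod.norm_def, ← this, max_self] }
  let f₂ : M →ₗᵢ[ℂ] K₂ :=
    { toLinearMap := (LinearMap.snd ℂ K₁ K₂).comp M.subtype
      norm_map' := fun z => by
        have := hn z.1 z.2
        show ‖z.1.2‖ = ‖z.1‖
        rw [Prod.norm_def, ← this, max_self] }
  obtain ⟨z₀, hz₀M, hz₀⟩ := (Submodule.ne_bot_iff M).mp hne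
  have hz₀' : (⟨z₀, hz₀M⟩ : M) ≠ 0 := fun h => hz₀ (congrArg Subtype.val h)
  have s₁ : Function.Surjective f₁ := by
    rcases h₁ (LinearMap.range f₁.toLinearMap) f₁.isometry.isClosedEmbedding.isClosed_range
      (by rintro a _ ⟨z, rfl⟩; exact ⟨⟨_, hinv a z.1 z.2⟩, rfl⟩) with h | h
    · exfalso
      have : f₁ ⟨z₀, hz₀M⟩ ∈ LinearMap.range f₁.toLinearMap := ⟨_, rfl⟩
      rw [h, Submodule.mem_bot] at this
      exact hz₀' (f₁.injective (by rw [this, map_zero]))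
    · exact LinearMap.range_eq_top.mp h
  have s₂ : Function.Surjective f₂ := by
    rcases h₂ (LinearMap.range f₂.toLinearMap) f₂.isometry.isClosedEmbedding.isClosed_range
      (by rintro a _ ⟨z, rfl⟩; exact ⟨⟨_, hinv a z.1 z.2⟩, rfl⟩) with h | h
    · exfalso
      have : f₂ ⟨z₀, hz₀M⟩ ∈ LinearMap.range f₂.toLinearMap := ⟨_, rfl⟩
      rw [h, Submodule.mem_bot] at this
      exact hz₀' (f₂.injective (by rw [this, map_zero]))
    · exact LinearMap.range_eq_top.mp h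
  let e₁ := LinearIsometryEquiv.ofSurjective f₁ s₁
  let e₂ := LinearIsometryEquiv.ofSurjective f₂ s₂
  have key : ∀ z ∈ M, (e₁.symm.trans e₂) z.1 = z.2 := fun z hz => by
    have : e₁ ⟨z, hz⟩ = z.1 := rfl
    rw [← this]
    simp only [LinearIsometryEquiv.trans_apply, LinearIsometryEquiv.symm_apply_apply]
    rfl
  refine ⟨e₁.symm.trans e₂, key, fun a x => ?_⟩
  obtain ⟨z, rfl⟩ := s₁ x
  have e1 : f₁ z = z.1.1 := rfl
  rw [e1, key z.1 z.2]
  exact key _ (hinv a z.1 z.2)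

omit [CompleteSpace K₁] [CompleteSpace K₂] in
/-- If inner products agree on a generating set, norms agree on the closed span. -/
lemma norm_eq_of_mem_closure_span (G : Set (K₁ × K₂))
    (hG : ∀ z ∈ G, ∀ w ∈ G, ⟪z.1, w.1⟫_ℂ = ⟪z.2, w.2⟫_ℂ) :
    ∀ z ∈ (Submodule.span ℂ G).topologicalClosure, ‖z.1‖ = ‖z.2‖ := by
  have h1 : ∀ z ∈ Submodule.span ℂ G, ∀ w ∈ Submodule.span ℂ G,
      ⟪z.1, w.1⟫_ℂ = ⟪z.2, w.2⟫_ℂ := by
    intro z hz w hw
    induction hz, hw using Submodule.span_induction₂ with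
    | mem_mem x y hx hy => exact hG x hx y hy
    | zero_left => simp
    | zero_right => simp
    | add_left x y w _ _ _ h1 h2 => simp [h1, h2]
    | add_right x y w _ _ _ h1 h2 => simp [h1, h2]
    | smul_left r x y _ _ h => simp [h]
    | smul_right r x y _ _ h => simp [h]
  intro z hz
  have hcl : IsClosed {z : K₁ × K₂ | ‖z.1‖ = ‖z.2‖} := isClosed_eq (by fun_prop) (by fun_prop)
  refine closure_minimal (fun w hw => ?_) hcl hz
  have := h1 w hw w hw
  show ‖w.1‖ = ‖w.2‖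
  rw [@norm_eq_sqrt_re_inner ℂ, @norm_eq_sqrt_re_inner ℂ, this]

end Graph

section Density

variable {A : Type*} [CStarAlgebra A] {K : Type*} [NormedAddCommGroup K] [InnerProductSpace ℂ K]
  [CompleteSpace K]

lemma inner_rep_left (σ : A →⋆ₐ[ℂ] (K →L[ℂ] K)) (a : A) (x y : K) :
    ⟪σ a x, y⟫_ℂ = ⟪x, σ (star a) y⟫_ℂ := by
  rw [map_star, ContinuousLinearMap.star_eq_adjoint, ContinuousLinearMap.adjoint_inner_right]

lemma inner_rep_right (σ : A →⋆ₐ[ℂ] (K →L[ℂ] K)) (a : A) (x y : K) :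
    ⟪x, σ a y⟫_ℂ = ⟪σ (star a) x, y⟫_ℂ := by
  rw [inner_rep_left, star_star]

lemma rep_mul_apply (σ : A →⋆ₐ[ℂ] (K →L[ℂ] K)) (a b : A) (x : K) :
    σ (a * b) x = σ a (σ b x) := by
  rw [map_mul]; rfl

lemma norm_rep_apply_le (σ : A →⋆ₐ[ℂ] (K →L[ℂ] K)) (a : A) (x : K) :
    ‖σ a x‖ ≤ ‖a‖ * ‖x‖ :=
  ((σ a).le_opNorm x).trans
    (mul_le_mul_of_nonneg_right (NonUnitalStarAlgHom.norm_apply_le σ a) (norm_nonneg _))

lemma norm_rep_apply_sq (σ : A →⋆ₐ[ℂ] (K →L[ℂ] K)) (a : A) (x : K) :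
    ‖σ a x‖ ^ 2 = (⟪x, σ (star a * a) x⟫_ℂ).re := by
  rw [rep_mul_apply, ← inner_rep_left, ← inner_self_eq_norm_sq (𝕜 := ℂ)]; rfl

lemma norm_rep_isometry (σ : A →⋆ₐ[ℂ] (K →L[ℂ] K)) {t : A} (ht : star t * t = 1) (x : K) :
    ‖σ t x‖ = ‖x‖ := by
  have := norm_rep_apply_sq σ t x
  rw [ht, map_one, one_apply_eq_self] at this
  have h2 : (⟪x, x⟫_ℂ).re = ‖x‖ ^ 2 := inner_self_eq_norm_sq (𝕜 := ℂ) x
  rw [h2] at this
  exact (pow_left_inj₀ (norm_nonneg _) (norm_nonneg _) two_ne_zero).mp this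

lemma re_inner_rep_nonneg [PartialOrder A] [StarOrderedRing A] (σ : A →⋆ₐ[ℂ] (K →L[ℂ] K))
    {a : A} (ha : 0 ≤ a) (x : K) : 0 ≤ (⟪x, σ a x⟫_ℂ).re := by
  obtain ⟨b, rfl⟩ := CStarAlgebra.nonneg_iff_eq_star_mul_self.mp ha
  rw [← norm_rep_apply_sq]; positivity

/-- In an irreducible representation, every vector orthogonal to `ξ` is approximated by
vectors `σ y ξ` with `y` self-adjoint. -/
lemma density (σ : A →⋆ₐ[ℂ] (K →L[ℂ] K)) (h : Irr σ) {ξ ζ : K} (hξ : ξ ≠ 0)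
    (hζ : ⟪ξ, ζ⟫_ℂ = 0) {ε : ℝ} (hε : 0 < ε) :
    ∃ y : A, IsSelfAdjoint y ∧ ‖σ y ξ - ζ‖ < ε := by
  let S : Set K := {x | ∃ y : A, IsSelfAdjoint y ∧ σ y ξ = x}
  suffices hS : ζ ∈ closure S by
    obtain ⟨_, ⟨y, hy, rfl⟩, hd⟩ := Metric.mem_closure_iff.mp hS ε hε
    exact ⟨y, hy, by rwa [dist_comm, dist_eq_norm] at hd⟩
  by_contra hS
  have hsmul : ∀ (r : ℝ), ∀ x ∈ S, (r : ℂ) • x ∈ S := by
    rintro r _ ⟨y, hy, rfl⟩
    refine ⟨(r : ℂ) • y, ?_, by rw [map_smul]; rfl⟩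
    rw [IsSelfAdjoint, star_smul, hy.star_eq]; simp
  have hconv : Convex ℝ S := by
    rintro _ ⟨y, hy, rfl⟩ _ ⟨z, hz, rfl⟩ a b _ _ _
    refine ⟨(a : ℂ) • y + (b : ℂ) • z, ?_, by rw [map_add, map_smul, map_smul]; rfl⟩
    rw [IsSelfAdjoint, star_add, star_smul, star_smul, hy.star_eq, hz.star_eq]; simp
  obtain ⟨f, u, hf1, hf2⟩ := RCLike.geometric_hahn_banach_point_closed (𝕜 := ℂ) hconv.closure
    isClosed_closure hS
  set η : K := (InnerProductSpace.toDual ℂ K).symm f with hη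
  have hfη : ∀ x, f x = ⟪η, x⟫_ℂ := fun x => by simp [hη]
  have hu : u < 0 := by simpa using hf2 0 (subset_closure ⟨0, IsSelfAdjoint.zero A, by simp⟩)
  have hzero : ∀ x ∈ S, (⟪η, x⟫_ℂ).re = 0 := by
    intro x hx
    by_contra hne
    have := hf2 _ (subset_closure (hsmul (u / (⟪η, x⟫_ℂ).re) x hx))
    rw [hfη, inner_smul_right] at this
    simp only [RCLike.re_to_complex, Complex.re_ofReal_mul] at this
    rw [div_mul_cancel₀ _ hne] at this
    exact lt_irrefl _ this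
  have hηζ : ⟪η, ζ⟫_ℂ ≠ 0 := by
    intro h0
    rw [hfη, h0] at hf1
    simp at hf1
    linarith
  let L : A →ₗ[ℂ] K × K :=
    { toFun := fun a => (σ a (ξ + η), σ a (ξ - η))
      map_add' := fun a b => by simp
      map_smul' := fun c a => by simp }
  have hL : ∀ a, ‖σ a (ξ + η)‖ = ‖σ a (ξ - η)‖ := fun a => by
    have h0 := hzero _ ⟨star a * a, IsSelfAdjoint.star_mul_self a, rfl⟩
    rw [rep_mul_apply, ← inner_rep_left] at h0
    have h1 : RCLike.re ⟪σ a ξ, σ a η⟫_ℂ = 0 := by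
      rw [inner_re_symm]; exact h0
    have : ‖σ a (ξ + η)‖ ^ 2 = ‖σ a (ξ - η)‖ ^ 2 := by
      rw [map_add, map_sub, @norm_add_sq ℂ, @norm_sub_sq ℂ, h1]; ring
    exact (pow_left_inj₀ (norm_nonneg _) (norm_nonneg _) two_ne_zero).mp this
  have hmem : (ξ + η, ξ - η) ∈ (LinearMap.range L).topologicalClosure :=
    Submodule.le_topologicalClosure _ ⟨1, by simp [L]⟩
  obtain ⟨U, hU1, hU2⟩ := graph h h (LinearMap.range L).topologicalClosure
    (Submodule.isClosed_topologicalClosure _)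
    (by
      intro h0
      rw [h0, Submodule.mem_bot, Prod.mk_eq_zero] at hmem
      apply hξ
      have : (2 : ℂ) • ξ = (ξ + η) + (ξ - η) := by module
      rw [hmem.1, hmem.2, add_zero] at this
      simpa using this)
    (by
      intro z hz
      have hcl : IsClosed {z : K × K | ‖z.1‖ = ‖z.2‖} := isClosed_eq (by fun_prop) (by fun_prop)
      refine closure_minimal ?_ hcl hz
      rintro _ ⟨a, rfl⟩
      exact hL a)
    (by
      intro a z hz
      have hc : Continuous (fun z : K × K => (σ a z.1, σ a z.2)) := by fun_prop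
      refine map_mem_closure (f := fun z : K × K => (σ a z.1, σ a z.2)) hc hz ?_
      rintro _ ⟨b, rfl⟩
      exact ⟨a * b, by simp [L]⟩)
  obtain ⟨c, hc⟩ := schur (σ := σ) (fun a => map_star σ a) h
    (T := (U.toContinuousLinearEquiv : K →L[ℂ] K)) (fun a => by
      ext x
      exact hU2 a x)
  have h1 : ξ - η = c • (ξ + η) := by
    have e1 := hU1 _ hmem
    have e2 := congrArg (fun T : K →L[ℂ] K => T (ξ + η)) hc
    simp only at e1
    rw [← e1]
    simpa using e2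
  have h2 : ⟪ζ, ξ⟫_ℂ = 0 := by rw [← inner_conj_symm, hζ, map_zero]
  have h3 : ⟪ζ, η⟫_ℂ ≠ 0 := by
    intro h0; apply hηζ; rw [← inner_conj_symm, h0, map_zero]
  have h4 := congrArg (fun x => ⟪ζ, x⟫_ℂ) h1
  simp only [inner_sub_right, inner_smul_right, inner_add_right, h2, zero_sub, zero_add] at h4
  have h5 : c = -1 := by
    have : (c + 1) * ⟪ζ, η⟫_ℂ = 0 := by linear_combination -h4
    rcases mul_eq_zero.mp this with h | h
    · linear_combination h
    · exact absurd h h3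
  rw [h5] at h1
  apply hξ
  have : (2 : ℂ) • ξ = (ξ - η) - (-1 : ℂ) • (ξ + η) := by module
  rw [← h1, sub_self] at this
  simpa using this

end Density

end Vale.Agent.P070
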