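import Vale.Agent.P070.Peak

/-! Every irreducible representation of a separable purely infinite algebra has a unit vector
fixed by a peak. -/

set_option linter.unusedSimpArgs false

namespace Vale.Agent.P070

open scoped InnerProductSpace ComplexOrder ComplexStarModule
open Filter Topology

/-- Pure infiniteness, in the form used here. -/
structure PInf (A : Type*) [CStarAlgebra A] : Prop where
  pi : ∀ a : A, a ≠ 0 → ∃ x, star (a * x) * (a * x) = 1
  two : ∃ s₁ s₂ : A, star s₁ * s₁ = 1 ∧ star s₂ * s₂ = 1 ∧ star s₁ * s₂ = 0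

variable {A : Type*} [CStarAlgebra A] {K : Type*} [NormedAddCommGroup K] [InnerProductSpace ℂ K]
  [CompleteSpace K]

omit [CompleteSpace K] in
lemma re_inner_self (x : K) : (⟪x, x⟫_ℂ).re = ‖x‖ ^ 2 := inner_self_eq_norm_sq (𝕜 := ℂ) x

lemma half (hA : PInf A) (σ : A →⋆ₐ[ℂ] (K →L[ℂ] K)) (ζ : K) :
    ∃ z : A, star z * z = 1 ∧ ‖σ (star z) ζ‖ ^ 2 ≤ ‖ζ‖ ^ 2 / 2 := by
  obtain ⟨r, s, hr, hs, hrs⟩ := hA.two
  have hsr : star s * r = 0 := by simpa using congrArg star hrs
  have a1 : ∀ x, star r * (r * x) = x := fun x => by rw [← mul_assoc, hr, one_mul]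
  have a2 : ∀ x, star s * (s * x) = x := fun x => by rw [← mul_assoc, hs, one_mul]
  have a3 : ∀ x, star r * (s * x) = 0 := fun x => by rw [← mul_assoc, hrs, zero_mul]
  have a4 : ∀ x, star s * (r * x) = 0 := fun x => by rw [← mul_assoc, hsr, zero_mul]
  have e : star (1 - r * star r - s * star s) * (1 - r * star r - s * star s) =
      1 - star (star r) * star r - star (star s) * star s := by
    simp only [star_mul, star_sub, star_one, star_star, mul_sub,
      sub_mul, mul_assoc, mul_one, one_mul, a1, a2, a3, a4, mul_zero]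
    abel
  have h := norm_rep_apply_sq σ (1 - r * star r - s * star s) ζ
  have h0 := sq_nonneg ‖σ (1 - r * star r - s * star s) ζ‖
  rw [h, e, map_sub, map_sub, map_one, sub_apply, sub_apply, one_apply_eq_self, inner_sub_right,
    inner_sub_right, Complex.sub_re, Complex.sub_re, ← norm_rep_apply_sq, ← norm_rep_apply_sq,
    re_inner_self] at h0
  by_cases hc : ‖σ (star r) ζ‖ ^ 2 ≤ ‖ζ‖ ^ 2 / 2
  · exact ⟨r, hr, hc⟩
  · exact ⟨s, hs, by linarith⟩

lemma small (hA : PInf A) (σ : A →⋆ₐ[ℂ] (K →L[ℂ] K)) (ζ : K) {κ : ℝ} (hκ : 0 < κ) :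
    ∃ z : A, star z * z = 1 ∧ ‖σ (star z) ζ‖ < κ := by
  have h : ∀ n : ℕ, ∃ z : A, star z * z = 1 ∧ ‖σ (star z) ζ‖ ^ 2 ≤ ‖ζ‖ ^ 2 * (1 / 2) ^ n := by
    intro n
    induction n with
    | zero => exact ⟨1, by simp, by simp⟩
    | succ n ih =>
      obtain ⟨z, hz, h1⟩ := ih
      obtain ⟨w, hw, h2⟩ := half hA σ (σ (star z) ζ)
      refine ⟨z * w, ?_, ?_⟩
      · rw [star_mul, mul_assoc, ← mul_assoc (star z), hz, one_mul, hw]
      · rw [star_mul, rep_mul_apply, pow_succ (1 / 2 : ℝ)]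
        linarith
  have ht : Tendsto (fun n : ℕ => ‖ζ‖ ^ 2 * (1 / 2 : ℝ) ^ n) atTop (𝓝 (‖ζ‖ ^ 2 * 0)) :=
    (tendsto_pow_atTop_nhds_zero_of_lt_one (by norm_num) (by norm_num)).const_mul _
  rw [mul_zero] at ht
  obtain ⟨n, hn⟩ := (ht.eventually (gt_mem_nhds (show 0 < κ ^ 2 by positivity))).exists
  obtain ⟨z, hz, h1⟩ := h n
  exact ⟨z, hz, lt_of_pow_lt_pow_left₀ 2 hκ.le (h1.trans_lt hn)⟩

lemma posPart_le_one [PartialOrder A] [StarOrderedRing A] {h : A} (hh : IsSelfAdjoint h)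
    (h1 : h ≤ 1) : h⁺ ≤ 1 := by
  have hsp := (CFC.le_one_iff (R := ℝ) h hh).mp h1
  rw [CFC.posPart_def, cfcₙ_eq_cfc]
  refine cfc_le_one _ _ (fun x hx => ?_)
  exact sup_le (hsp x hx) zero_le_one

/-- Cutting down to the region where `star l * l` is small. -/
lemma exists_cutoff (σ : A →⋆ₐ[ℂ] (K →L[ℂ] K)) (l : A) (ξ : K) (hξ : ‖ξ‖ = 1) {δ : ℝ}
    (hδ : 0 < δ) :
    ∃ e : A, IsSelfAdjoint e ∧ ‖e‖ ≤ 1 ∧ (∀ x : A, ‖l * (e * x)‖ ≤ δ * ‖e * x‖) ∧
      1 - ‖σ l ξ‖ ^ 2 / δ ^ 2 ≤ (⟪ξ, σ e ξ⟫_ℂ).re := by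
  let := CStarAlgebra.spectralOrder A
  have := CStarAlgebra.spectralOrderedRing A
  set c : ℂ := ((δ⁻¹ : ℝ) : ℂ) with hc
  set m : A := c • l with hm
  set h : A := 1 - star m * m with hh
  have hsa : IsSelfAdjoint h := (IsSelfAdjoint.one A).sub (IsSelfAdjoint.star_mul_self m)
  have hle : h ≤ 1 := sub_le_self _ (star_mul_self_nonneg m)
  have he0 : 0 ≤ h⁺ := CFC.posPart_nonneg h
  have hesa : IsSelfAdjoint h⁺ := he0.isSelfAdjoint
  have he1 : h⁺ ≤ 1 := posPart_le_one hsa hle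
  refine ⟨h⁺, hesa, (CStarAlgebra.norm_le_one_iff_of_nonneg _ he0).mpr he1, fun x => ?_, ?_⟩
  · have e1 : star (h⁺ * x) * h * (h⁺ * x) = star (h⁺ * x) * h⁺ * (h⁺ * x) := by
      conv_lhs => rw [← CFC.posPart_sub_negPart h hsa]
      have : (h⁺ - h⁻)⁺ = h⁺ := by rw [CFC.posPart_sub_negPart h hsa]
      rw [this, mul_sub, sub_mul, mul_assoc _ h⁻, ← mul_assoc h⁻, CFC.negPart_mul_posPart]
      simp
    have e2 : 0 ≤ star (h⁺ * x) * h * (h⁺ * x) := by
      rw [e1]; exact star_left_conjugate_nonneg he0 _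
    have e3 : star (m * (h⁺ * x)) * (m * (h⁺ * x)) ≤ star (h⁺ * x) * (h⁺ * x) := by
      rw [← sub_nonneg]
      convert e2 using 1
      generalize h⁺ * x = y
      rw [hh]
      simp only [star_mul, mul_sub, sub_mul, mul_one, mul_assoc]
    have e4 := CStarAlgebra.norm_le_norm_of_nonneg_of_le (star_mul_self_nonneg _) e3
    rw [CStarRing.norm_star_mul_self, CStarRing.norm_star_mul_self] at e4
    have e5 : ‖m * (h⁺ * x)‖ ≤ ‖h⁺ * x‖ := by
      by_contra hcon
      push Not at hcon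
      nlinarith [norm_nonneg (h⁺ * x)]
    rw [hm, smul_mul_assoc, norm_smul, hc, Complex.norm_real, Real.norm_eq_abs,
      abs_of_pos (inv_pos.mpr hδ), inv_mul_le_iff₀ hδ] at e5
    exact e5
  · have e1 := re_inner_rep_nonneg σ (sub_nonneg.mpr (CFC.le_posPart hsa)) ξ
    rw [map_sub, sub_apply, inner_sub_right, Complex.sub_re] at e1
    have e2 : (⟪ξ, σ h ξ⟫_ℂ).re = 1 - ‖σ l ξ‖ ^ 2 / δ ^ 2 := by
      rw [hh, map_sub, map_one, sub_apply, one_apply_eq_self, inner_sub_right, Complex.sub_re,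
        ← norm_rep_apply_sq, re_inner_self, hξ, hm, map_smul, smul_apply, norm_smul, hc,
        Complex.norm_real, Real.norm_eq_abs, abs_of_pos (inv_pos.mpr hδ)]
      field_simp
    linarith

lemma exists_sqrt_defect {g : A} (hg : ‖g‖ ≤ 1) :
    ∃ m : A, IsSelfAdjoint m ∧ m * m = 1 - star g * g ∧ ‖m‖ ≤ 1 := by
  let := CStarAlgebra.spectralOrder A
  have := CStarAlgebra.spectralOrderedRing A
  have h1 : star g * g ≤ 1 := by
    rw [← CStarAlgebra.norm_le_one_iff_of_nonneg _ (star_mul_self_nonneg g),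
      CStarRing.norm_star_mul_self]
    nlinarith [norm_nonneg g]
  have h2 : 0 ≤ 1 - star g * g := sub_nonneg.mpr h1
  have h3 : IsSelfAdjoint (CFC.sqrt (1 - star g * g)) := (CFC.sqrt_nonneg _).isSelfAdjoint
  have h4 := CFC.sqrt_mul_sqrt_self _ h2
  refine ⟨CFC.sqrt (1 - star g * g), h3, h4, ?_⟩
  have h5 : ‖1 - star g * g‖ ≤ 1 :=
    (CStarAlgebra.norm_le_one_iff_of_nonneg _ h2).mpr (sub_le_self _ (star_mul_self_nonneg g))
  have h6 := CStarRing.norm_star_mul_self (x := CFC.sqrt (1 - star g * g))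
  rw [h3.star_eq, h4] at h6
  nlinarith [norm_nonneg (CFC.sqrt (1 - star g * g))]

lemma norm_mul_le_left {a b : A} {δ : ℝ} (h1 : ‖a‖ ≤ δ) (h2 : ‖b‖ ≤ 1) : ‖a * b‖ ≤ δ :=
  (norm_mul_le _ _).trans ((mul_le_of_le_one_right (norm_nonneg _) h2).trans h1)

lemma norm_mul_le_right {a b : A} {δ : ℝ} (h1 : ‖a‖ ≤ 1) (h2 : ‖b‖ ≤ δ) : ‖a * b‖ ≤ δ :=
  (norm_mul_le _ _).trans ((mul_le_of_le_one_left (norm_nonneg _) h1).trans h2)

/-- One step of the excision. -/
lemma one_step (hA : PInf A) (σ : A →⋆ₐ[ℂ] (K →L[ℂ] K)) (hσ : Irr σ) {ξ : K} (hξ : ‖ξ‖ = 1)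
    {a : A} (ha : IsSelfAdjoint a) {ε : ℝ} (hε : 0 < ε) :
    ∃ (r s : A) (c : ℂ), star r * r = 1 ∧ star s * s = 1 ∧ star r * s = 0 ∧
      ‖star r * a * r - c • (1 : A)‖ ≤ ε ∧ ‖ξ - σ r ξ‖ ≤ ε := by
  have hξ0 : ξ ≠ 0 := by rintro rfl; simp at hξ
  set c : ℝ := (⟪ξ, σ a ξ⟫_ℂ).re with hc
  have hcc : ⟪ξ, σ a ξ⟫_ℂ = c := by
    rw [hc, eq_comm, ← Complex.conj_eq_iff_re, inner_conj_symm, inner_rep_left, ha.star_eq]
  set a₀ : A := a - (c : ℂ) • 1 with ha₀
  have ha₀sa : IsSelfAdjoint a₀ := by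
    refine ha.sub ?_
    rw [IsSelfAdjoint, star_smul, star_one]; simp
  have hort : ⟪ξ, σ a₀ ξ⟫_ℂ = 0 := by
    rw [ha₀, map_sub, sub_apply, inner_sub_right, hcc, map_smul, map_one, smul_apply,
      one_apply_eq_self, inner_smul_right, inner_self_eq_norm_sq_to_K, hξ]
    simp
  set δ : ℝ := ε / 6 with hδdef
  have hδ : 0 < δ := by positivity
  set κ : ℝ := min (ε ^ 2 / 6) (1 / 2) with hκdef
  have hκ : 0 < κ := lt_min (by positivity) (by norm_num)
  have hκ1 : κ ≤ ε ^ 2 / 6 := min_le_left _ _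
  have hκ2 : κ ≤ 1 / 2 := min_le_right _ _
  obtain ⟨y, hy, hyξ⟩ := density σ hσ hξ0 (ζ := (Complex.I / 2) • σ a₀ ξ)
    (by rw [inner_smul_right, hort, mul_zero]) (show 0 < κ * δ by positivity)
  set l : A := (1 / 2 : ℂ) • a₀ + Complex.I • y with hl
  have hll : l + star l = a₀ := by
    rw [hl, star_add, star_smul, star_smul, ha₀sa.star_eq, hy.star_eq, Complex.star_def,
      Complex.conj_I]
    have : (starRingEnd ℂ) (1 / 2) = 1 / 2 := by rw [map_div₀, map_one, map_ofNat]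
    rw [this]
    module
  have hlξ : ‖σ l ξ‖ < κ * δ := by
    have : σ l ξ = Complex.I • (σ y ξ - (Complex.I / 2) • σ a₀ ξ) := by
      rw [hl, map_add, map_smul, map_smul, add_apply, smul_apply, smul_apply, smul_sub, smul_smul,
        mul_div_assoc', Complex.I_mul_I]
      module
    rw [this, norm_smul, Complex.norm_I, one_mul]
    exact hyξ
  obtain ⟨e, hesa, he1, hel, heξ⟩ := exists_cutoff σ l ξ hξ hδ
  have heξ' : 1 - κ ≤ (⟪ξ, σ e ξ⟫_ℂ).re := by
    refine le_trans ?_ heξ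
    have h1 : ‖σ l ξ‖ ^ 2 ≤ (κ * δ) ^ 2 := by gcongr
    have h2 : ‖σ l ξ‖ ^ 2 / δ ^ 2 ≤ κ ^ 2 := by
      rw [div_le_iff₀ (by positivity), ← mul_pow]; exact h1
    have h3 : κ ^ 2 ≤ κ := by rw [sq]; exact mul_le_of_le_one_right hκ.le (by linarith)
    linarith
  have he0 : e ≠ 0 := by
    rintro rfl
    simp at heξ'
    linarith
  obtain ⟨x, hx⟩ := hA.pi e he0
  obtain ⟨z, hz, hzξ⟩ := small hA σ (σ (star (e * x)) ξ) hκ
  set y₂ : A := e * x * z with hy₂
  have hy₂i : star y₂ * y₂ = 1 := by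
    rw [hy₂, star_mul, mul_assoc, ← mul_assoc (star (e * x)), hx, one_mul, hz]
  have hy₂n := norm_le_one_of_isometry hy₂i
  have hy₂ξ : ‖σ (star y₂) ξ‖ < κ := by rwa [hy₂, star_mul, rep_mul_apply]
  have hly₂ : ‖l * y₂‖ ≤ δ := by
    have := hel (x * z)
    rw [← mul_assoc e, ← hy₂] at this
    exact this.trans (mul_le_of_le_one_right hδ.le hy₂n)
  have hle : ‖l * e‖ ≤ δ := by
    have := hel 1
    rw [mul_one] at this
    exact this.trans (mul_le_of_le_one_right hδ.le he1)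
  obtain ⟨s₁, s₂, hs₁, hs₂, hs₁₂⟩ := hA.two
  have hs₁n := norm_le_one_of_isometry hs₁
  set g : A := (1 - y₂ * star y₂) * e with hg
  have hq : star (1 - y₂ * star y₂) * (1 - y₂ * star y₂) = 1 - y₂ * star y₂ := by
    have a1 : ∀ x, star y₂ * (y₂ * x) = x := fun x => by rw [← mul_assoc, hy₂i, one_mul]
    simp only [star_mul, star_sub, star_one, star_star, mul_sub,
      sub_mul, mul_assoc, mul_one, one_mul, a1]
    abel
  have hqn : ‖1 - y₂ * star y₂‖ ≤ 1 := by
    have := CStarRing.norm_star_mul_self (x := 1 - y₂ * star y₂)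
    rw [hq] at this
    generalize ‖1 - y₂ * star y₂‖ = t at this
    by_contra hcon
    push Not at hcon
    have h2 : t * 1 < t * t := mul_lt_mul_of_pos_left hcon (by linarith)
    linarith
  have hgn : ‖g‖ ≤ 1 := (norm_mul_le _ _).trans (mul_le_one₀ hqn (norm_nonneg _) he1)
  have hgy : star g * y₂ = 0 := by
    rw [hg, star_mul, star_sub, star_one, star_mul, star_star, mul_assoc, sub_mul, one_mul,
      mul_assoc, hy₂i, mul_one, sub_self, mul_zero]
  have hyg : star y₂ * g = 0 := by simpa using congrArg star hgy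
  obtain ⟨m, hmsa, hmm, hmn⟩ := exists_sqrt_defect hgn
  have b1 : ∀ x, star y₂ * (y₂ * x) = x := fun x => by rw [← mul_assoc, hy₂i, one_mul]
  have b2 : ∀ x, star g * (y₂ * x) = 0 := fun x => by rw [← mul_assoc, hgy, zero_mul]
  have b3 : ∀ x, star s₁ * (s₁ * x) = x := fun x => by rw [← mul_assoc, hs₁, one_mul]
  have hsm : ‖s₁ * m‖ ≤ 1 := (norm_mul_le _ _).trans (mul_le_one₀ hs₁n (norm_nonneg _) hmn)
  have hr : star (g + y₂ * (s₁ * m)) * (g + y₂ * (s₁ * m)) = 1 := by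
    simp only [star_add, star_mul, hmsa.star_eq, add_mul, mul_add, mul_assoc, b1, b2, b3, hyg,
      mul_zero, hmm]
    abel
  refine ⟨g + y₂ * (s₁ * m), y₂ * s₂, c, hr, ?_, ?_, ?_, ?_⟩
  · rw [star_mul, mul_assoc, b1, hs₂]
  · simp only [star_add, star_mul, add_mul, mul_assoc, b1, b2, hs₁₂, mul_zero, add_zero]
  · have hlr : ‖l * (g + y₂ * (s₁ * m))‖ ≤ 3 * δ := by
      have e1 : l * (g + y₂ * (s₁ * m)) =
          l * e - l * y₂ * (star y₂ * e) + l * y₂ * (s₁ * m) := by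
        rw [hg]; simp only [mul_add, mul_sub, sub_mul, one_mul, mul_assoc]
      have h1 : ‖star y₂ * e‖ ≤ 1 :=
        (norm_mul_le _ _).trans (mul_le_one₀ (by rwa [norm_star]) (norm_nonneg _) he1)
      have h2 : ‖l * y₂ * (star y₂ * e)‖ ≤ δ :=
        norm_mul_le_left hly₂ h1
      have h3 : ‖l * y₂ * (s₁ * m)‖ ≤ δ :=
        norm_mul_le_left hly₂ hsm
      rw [e1]
      refine (norm_add_le _ _).trans ?_
      have := norm_sub_le (l * e) (l * y₂ * (star y₂ * e))
      linarith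
    generalize g + y₂ * (s₁ * m) = r at hr hlr
    have hrn := norm_le_one_of_isometry hr
    have e1 : star r * a * r - (c : ℂ) • (1 : A) = star r * (l * r) + star (star r * (l * r)) := by
      have : star r * a * r - (c : ℂ) • (1 : A) = star r * a₀ * r := by
        rw [ha₀, mul_sub, sub_mul, mul_smul_comm, smul_mul_assoc, mul_one, hr]
      rw [this, ← hll]
      simp only [star_mul, star_star, mul_add, add_mul, mul_assoc]
    have h1 : ‖star r * (l * r)‖ ≤ 3 * δ := norm_mul_le_right (by rwa [norm_star]) hlr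
    rw [e1]
    refine (norm_add_le _ _).trans ?_
    rw [norm_star]
    linarith
  · have h1 : ‖σ (g + y₂ * (s₁ * m)) ξ‖ = 1 := by rw [norm_rep_isometry σ hr, hξ]
    have hb : ∀ w : A, ‖w‖ ≤ 1 → |(⟪ξ, σ (y₂ * w) ξ⟫_ℂ).re| ≤ κ := fun w hw => by
      rw [rep_mul_apply, inner_rep_right]
      refine (Complex.abs_re_le_norm _).trans ((norm_inner_le_norm _ _).trans ?_)
      have := norm_rep_apply_le σ w ξ
      rw [hξ, mul_one] at this
      exact (mul_le_of_le_one_right (norm_nonneg _) (this.trans hw)).trans hy₂ξ.le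
    have h2 : 1 - 3 * κ ≤ (⟪ξ, σ (g + y₂ * (s₁ * m)) ξ⟫_ℂ).re := by
      have e1 : g + y₂ * (s₁ * m) = e - y₂ * (star y₂ * e) + y₂ * (s₁ * m) := by
        rw [hg]; simp only [sub_mul, one_mul, mul_assoc]
      have h3 : ‖star y₂ * e‖ ≤ 1 :=
        (norm_mul_le _ _).trans (mul_le_one₀ (by rwa [norm_star]) (norm_nonneg _) he1)
      have h4 := abs_le.mp (hb _ h3)
      have h5 := abs_le.mp (hb _ hsm)
      rw [e1, map_add, map_sub, add_apply, sub_apply, inner_add_right, inner_sub_right,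
        Complex.add_re, Complex.sub_re]
      linarith
    have h3 : ‖ξ - σ (g + y₂ * (s₁ * m)) ξ‖ ^ 2 ≤ ε ^ 2 := by
      rw [@norm_sub_sq ℂ, h1, hξ]
      simp only [RCLike.re_to_complex]
      linarith
    exact (pow_le_pow_iff_left₀ (norm_nonneg _) hε.le two_ne_zero).mp h3

/-- Every irreducible representation has a unit vector fixed by a peak. -/
theorem exists_peak [TopologicalSpace.SeparableSpace A] (hA : PInf A)
    (σ : A →⋆ₐ[ℂ] (K →L[ℂ] K)) (hσ : Irr σ) [Nontrivial K] :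
    ∃ (τ : Peak A) (η : K), ‖η‖ = 1 ∧ τ.Fixed σ η := by
  obtain ⟨ξ, hξ⟩ := exists_norm_eq K (zero_le_one (α := ℝ))
  have hstep : ∀ (a : A) (n : ℕ), ∃ (r s : A) (c : ℂ), star r * r = 1 ∧ star s * s = 1 ∧
      star r * s = 0 ∧ ‖star r * (ℜ a : A) * r - c • (1 : A)‖ ≤ 1 * (1 / 2 : ℝ) ^ n ∧
      ‖ξ - σ r ξ‖ ≤ 1 * (1 / 2 : ℝ) ^ n := fun a n =>
    one_step hA σ hσ hξ (ℜ a).2 (by positivity)
  choose R S C hR hS hRS hC hRξ using hstep
  let d : ℕ → A := TopologicalSpace.denseSeq A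
  have hd : DenseRange d := TopologicalSpace.denseRange_denseSeq A
  let b : ℕ → A := fun n => (ℜ (d (Nat.unpair n).1) : A)
  have hb : ∀ n, IsSelfAdjoint (b n) := fun n => (ℜ (d (Nat.unpair n).1)).2
  let T : ℕ → A := fun n => Nat.rec 1 (fun n t => t * R (star t * b n * t) n) n
  let r : ℕ → A := fun n => R (star (T n) * b n * T n) n
  have hT : ∀ n, prodSeq r n = T n := fun n => by
    induction n with
    | zero => rfl
    | succ n ih => rw [prodSeq, ih]
  have hr : ∀ n, star (r n) * r n = 1 := fun n => hR _ _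
  have hTi : ∀ n, star (T n) * T n = 1 := fun n => hT n ▸ prodSeq_isometry hr n
  have hTs : ∀ n, T (n + 1) = T n * r n := fun n => rfl
  have hcau : CauchySeq (fun n => σ (T n) ξ) := by
    refine cauchySeq_of_le_geometric (1 / 2) 1 (by norm_num) (fun n => ?_)
    rw [dist_eq_norm, hTs, rep_mul_apply, ← map_sub, norm_rep_isometry σ (hTi n)]
    exact hRξ _ _
  obtain ⟨η, hη⟩ := cauchySeq_tendsto_of_complete hcau
  have hηn : ‖η‖ = 1 := by
    have h1 := hη.norm
    simp only [norm_rep_isometry σ (hTi _), hξ] at h1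
    exact tendsto_nhds_unique h1 tendsto_const_nhds
  have hfix : ∀ m, σ (T m * star (T m)) η = η := fun m => by
    have h1 : Tendsto (fun n => σ (T m * star (T m)) (σ (T n) ξ)) atTop
        (𝓝 (σ (T m * star (T m)) η)) := ((σ _).continuous.tendsto η).comp hη
    refine tendsto_nhds_unique h1 (hη.congr' ?_)
    filter_upwards [eventually_ge_atTop m] with n hn
    obtain ⟨w, _, e⟩ := prodSeq_factor hr hn
    rw [hT, hT] at e
    rw [← rep_mul_apply, e, mul_assoc, ← mul_assoc (star (T m)), hTi, one_mul]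
  have hφ : ∀ (x : A) (c : ℂ) (n : ℕ), ‖⟪η, σ x η⟫_ℂ - c‖ ≤ ‖star (T n) * x * T n - c • (1 : A)‖ := by
    intro x c n
    have h1 : ⟪η, σ (T n * (star (T n) * x * T n - c • (1 : A)) * star (T n)) η⟫_ℂ =
        ⟪η, σ x η⟫_ℂ - c := by
      have e : T n * (star (T n) * x * T n - c • (1 : A)) * star (T n) =
          star (T n * star (T n)) * (x * (T n * star (T n))) - c • (T n * star (T n)) := by
        simp only [star_mul, star_star, mul_sub, sub_mul, mul_assoc, mul_smul_comm,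
          smul_mul_assoc, one_mul]
      rw [e, map_sub, map_smul, sub_apply, smul_apply, inner_sub_right, inner_smul_right,
        rep_mul_apply, ← inner_rep_left, rep_mul_apply σ x, hfix, inner_self_eq_norm_sq_to_K, hηn]
      simp
    rw [← h1]
    refine (norm_inner_le_norm _ _).trans ?_
    have := Peak.norm_sandwich_le σ (hTi n) (hTi n) (star (T n) * x * T n - c • (1 : A)) η
    rw [hηn, mul_one] at this
    rw [hηn, one_mul]
    exact this
  have hone : ‖(1 : A)‖ ≤ 1 := norm_le_one_of_isometry (by simp)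
  have hsa : ∀ x : A, IsSelfAdjoint x →
      Tendsto (fun n => star (T n) * x * T n) atTop (𝓝 (⟪η, σ x η⟫_ℂ • (1 : A))) := by
    intro x hx
    rw [Metric.tendsto_atTop]
    intro ε hε
    obtain ⟨k, hk⟩ := hd.exists_dist_lt x (show 0 < ε / 4 by positivity)
    obtain ⟨j, hj⟩ := exists_pow_lt_of_lt_one (show 0 < ε / 4 by positivity)
      (show (1 / 2 : ℝ) < 1 by norm_num)
    set n := Nat.pair k j with hn
    have hjn : (1 / 2 : ℝ) ^ n ≤ (1 / 2) ^ j :=
      pow_le_pow_of_le_one (by norm_num) (by norm_num) (Nat.right_le_pair k j)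
    have hbx : ‖x - b n‖ < ε / 4 := by
      have e : x - b n = (ℜ (x - d k) : A) := by
        simp only [b, hn, Nat.unpair_pair, map_sub, AddSubgroupClass.coe_sub]
        rw [hx.coe_realPart]
      rw [e]
      rw [dist_eq_norm] at hk
      exact lt_of_le_of_lt (realPart.norm_le (x - d k)) hk
    have h1 := hC (star (T n) * b n * T n) n
    rw [((hb n).conjugate' (T n)).coe_realPart] at h1
    set c := C (star (T n) * b n * T n) n with hc
    have h2 : ‖star (T (n + 1)) * x * T (n + 1) - c • (1 : A)‖ < ε / 2 := by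
      have e : star (T (n + 1)) * x * T (n + 1) - c • (1 : A) =
          star (T (n + 1)) * (x - b n) * T (n + 1) +
            (star (r n) * (star (T n) * b n * T n) * r n - c • (1 : A)) := by
        rw [hTs]
        simp only [star_mul, mul_sub, sub_mul, mul_assoc]
        abel
      rw [e]
      refine (norm_add_le _ _).trans_lt ?_
      have := norm_conj_le (hTi (n + 1)) (hTi (n + 1)) (x - b n)
      have h1' : ‖star (r n) * (star (T n) * b n * T n) * r n - c • (1 : A)‖ ≤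
        1 * (1 / 2 : ℝ) ^ n := h1
      linarith
    refine ⟨n + 1, fun m hm => ?_⟩
    obtain ⟨w, hw, e⟩ := prodSeq_factor hr hm
    rw [hT, hT] at e
    have h3 : ‖star (T m) * x * T m - c • (1 : A)‖ < ε / 2 := by
      refine lt_of_le_of_lt ?_ h2
      have e2 : star (T m) * x * T m - c • (1 : A) =
          star w * (star (T (n + 1)) * x * T (n + 1) - c • (1 : A)) * w := by
        rw [e]
        simp only [star_mul, mul_sub, sub_mul, mul_assoc, mul_smul_comm, smul_mul_assoc,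
          one_mul, hw]
      rw [e2]
      exact norm_conj_le hw hw _
    have h4 := (hφ x c m).trans_lt h3
    rw [dist_eq_norm]
    have e3 : star (T m) * x * T m - ⟪η, σ x η⟫_ℂ • (1 : A) =
        (star (T m) * x * T m - c • (1 : A)) - (⟪η, σ x η⟫_ℂ - c) • (1 : A) := by
      rw [sub_smul]; abel
    rw [e3]
    refine (norm_sub_le _ _).trans_lt ?_
    rw [norm_smul]
    nlinarith [norm_nonneg (⟪η, σ x η⟫_ℂ - c)]
  refine ⟨⟨r, fun n => S (star (T n) * b n * T n) n, fun x => ⟪η, σ x η⟫_ℂ, hr, fun n => hS _ _,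
    fun n => hRS _ _, fun a => ?_⟩, η, hηn, fun n => ?_⟩
  · have h1 := (hsa _ (ℜ a).2).add ((hsa _ (ℑ a).2).const_smul Complex.I)
    simp only [hT]
    convert h1 using 2
    · conv_lhs => rw [← realPart_add_I_smul_imaginaryPart a]
      rw [mul_add, add_mul, mul_smul_comm, smul_mul_assoc]
    · conv_lhs => rw [← realPart_add_I_smul_imaginaryPart a]
      rw [map_add, map_smul, add_apply, smul_apply, inner_add_right, inner_smul_right, add_smul,
        smul_smul]
  · show σ (prodSeq r n * star (prodSeq r n)) η = η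
    rw [hT]
    exact hfix n

end Vale.Agent.P070
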