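import Vale.Agent.P070.Excise

/-! A concrete separable purely infinite algebra: the closed star algebra generated by the
prepending isometries on square summable functions on aperiodic sequences. -/

set_option linter.unusedSimpArgs false

namespace Vale.Agent.P070

open scoped InnerProductSpace ComplexOrder
open Filter Topology

section Words

variable {D : Type*} [CStarAlgebra D]

lemma prodSeq_succ' (r : ℕ → D) (n : ℕ) :
    prodSeq r (n + 1) = r 0 * prodSeq (fun k => r (k + 1)) n := by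
  induction n with
  | zero => simp [prodSeq]
  | succ n ih => rw [prodSeq, ih, prodSeq, mul_assoc]

/-- Sequences that are not eventually periodic. -/
def Aper (y : ℕ → ℕ) : Prop := ∀ a b, (∀ n, y (a + n) = y (b + n)) → a = b

/-- Prepending a letter. -/
def pre (i : ℕ) (y : ℕ → ℕ) : ℕ → ℕ
  | 0 => i
  | n + 1 => y n

lemma Aper.pre {y : ℕ → ℕ} (h : Aper y) (i : ℕ) : Aper (pre i y) := fun a b hab =>
  h a b fun n => hab (n + 1)

lemma Aper.tail {y : ℕ → ℕ} (h : Aper y) : Aper (fun n => y (n + 1)) := fun a b hab => by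
  have := h (a + 1) (b + 1) fun n => by
    have := hab n
    simp only at this
    rw [show a + 1 + n = a + n + 1 by ring, show b + 1 + n = b + n + 1 by ring, this]
  omega

lemma aper_id : Aper (fun n => n) := fun a b h => by simpa using h 0

variable (s : ℕ → D)

/-- The word of isometries along a sequence. -/
def W (y : ℕ → ℕ) (n : ℕ) : D := prodSeq (fun k => s (y k)) n

lemma W_succ (y : ℕ → ℕ) (n : ℕ) : W s y (n + 1) = W s y n * s (y n) := rfl

lemma W_succ' (y : ℕ → ℕ) (n : ℕ) : W s y (n + 1) = s (y 0) * W s (fun k => y (k + 1)) n :=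
  prodSeq_succ' _ n

variable {s}

lemma W_iso (h1 : ∀ i, star (s i) * s i = 1) (y : ℕ → ℕ) (n : ℕ) :
    star (W s y n) * W s y n = 1 := prodSeq_isometry (fun k => h1 (y k)) n

lemma W_factor (h1 : ∀ i, star (s i) * s i = 1) (y : ℕ → ℕ) {m n : ℕ} (h : m ≤ n) :
    ∃ w : D, star w * w = 1 ∧ W s y n = W s y m * w := prodSeq_factor (fun k => h1 (y k)) h

lemma W_orth (h1 : ∀ i, star (s i) * s i = 1) (h2 : ∀ i j, i ≠ j → star (s i) * s j = 0)
    (k : ℕ) : ∀ (y y' : ℕ → ℕ) (N N' : ℕ), y k ≠ y' k → k < N → k < N' →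
      star (W s y N) * W s y' N' = 0 := by
  induction k with
  | zero =>
    intro y y' N N' h hN hN'
    obtain ⟨N, rfl⟩ := Nat.exists_eq_add_of_lt hN
    obtain ⟨N', rfl⟩ := Nat.exists_eq_add_of_lt hN'
    rw [W_succ', W_succ', star_mul, mul_assoc, ← mul_assoc (star (s (y 0))), h2 _ _ h, zero_mul,
      mul_zero]
  | succ k ih =>
    intro y y' N N' h hN hN'
    obtain ⟨N, rfl⟩ : ∃ M, N = M + 1 := ⟨N - 1, by omega⟩
    obtain ⟨N', rfl⟩ : ∃ M, N' = M + 1 := ⟨N' - 1, by omega⟩
    rw [W_succ', W_succ', star_mul, mul_assoc, ← mul_assoc (star (s (y 0)))]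
    by_cases h0 : y 0 = y' 0
    · rw [h0, h1, one_mul]
      exact ih _ _ _ _ h (by omega) (by omega)
    · rw [h2 _ _ h0, zero_mul, mul_zero]

variable (s) in
/-- Elements acting on germs of aperiodic sequences. -/
def Germ (T : D) : Prop := ∀ y, Aper y → (∃ N, T * W s y N = 0) ∨
  ∃ y' a b, Aper y' ∧ (∀ n, y (a + n) = y' (b + n)) ∧ T * W s y a = W s y' b

lemma germ_step {T : D} {y y' : ℕ → ℕ} {a b : ℕ} (h : ∀ n, y (a + n) = y' (b + n))
    (hT : T * W s y a = W s y' b) (n : ℕ) : T * W s y (a + n) = W s y' (b + n) := by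
  induction n with
  | zero => exact hT
  | succ n ih => rw [← add_assoc, ← add_assoc, W_succ, W_succ, ← mul_assoc, ih, h]

lemma germ_one : Germ s 1 := fun y hy => Or.inr ⟨y, 0, 0, hy, fun _ => rfl, one_mul _⟩

lemma germ_s (i : ℕ) : Germ s (s i) := fun y hy =>
  Or.inr ⟨pre i y, 0, 1, hy.pre i, fun n => by
    rw [zero_add, add_comm 1 n]; rfl, by simp [W, prodSeq, pre]⟩

lemma germ_star_s (h1 : ∀ i, star (s i) * s i = 1) (h2 : ∀ i j, i ≠ j → star (s i) * s j = 0)
    (i : ℕ) : Germ s (star (s i)) := fun y hy => by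
  by_cases h : i = y 0
  · refine Or.inr ⟨fun n => y (n + 1), 1, 0, hy.tail, fun n => by
      rw [zero_add, add_comm 1 n], ?_⟩
    simp [W, prodSeq, ← h, h1]
  · refine Or.inl ⟨1, ?_⟩
    simp [W, prodSeq, h2 _ _ h]

lemma Germ.mul (h1 : ∀ i, star (s i) * s i = 1) {T₁ T₂ : D} (g₁ : Germ s T₁) (g₂ : Germ s T₂) :
    Germ s (T₁ * T₂) := fun y hy => by
  rcases g₂ y hy with ⟨N, hN⟩ | ⟨y', a, b, hy', ht, hT⟩
  · exact Or.inl ⟨N, by rw [mul_assoc, hN, mul_zero]⟩
  · rcases g₁ y' hy' with ⟨N, hN⟩ | ⟨y'', a', b', hy'', ht', hT'⟩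
    · refine Or.inl ⟨a + N, ?_⟩
      obtain ⟨w, -, e⟩ := W_factor h1 y' (Nat.le_add_left N b)
      rw [mul_assoc, germ_step ht hT, e, ← mul_assoc, hN, zero_mul]
    · refine Or.inr ⟨y'', a + a', b' + b, hy'', fun n => ?_, ?_⟩
      · rw [add_assoc, ht, show b + (a' + n) = a' + (b + n) by ring, ht', add_assoc]
      · rw [mul_assoc, germ_step ht hT, add_comm b a', germ_step ht' hT']

lemma Germ.eventually (h1 : ∀ i, star (s i) * s i = 1)
    (h2 : ∀ i j, i ≠ j → star (s i) * s j = 0) {T : D} (g : Germ s T) {y : ℕ → ℕ} (hy : Aper y) :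
    ∃ c : ℂ, ∀ᶠ n in atTop, star (W s y n) * T * W s y n = c • (1 : D) := by
  rcases g y hy with ⟨N, hN⟩ | ⟨y', a, b, -, ht, hT⟩
  · refine ⟨0, ?_⟩
    filter_upwards [eventually_ge_atTop N] with n hn
    obtain ⟨w, -, e⟩ := W_factor h1 y hn
    rw [mul_assoc]
    conv_lhs => rw [e]
    rw [← mul_assoc T, hN, zero_mul, mul_zero, zero_smul]
  · by_cases h : y = y'
    · subst h
      obtain rfl := hy a b ht
      refine ⟨1, ?_⟩
      filter_upwards [eventually_ge_atTop a] with n hn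
      obtain ⟨m, rfl⟩ := Nat.exists_eq_add_of_le hn
      rw [mul_assoc, germ_step ht hT, W_iso h1, one_smul]
    · obtain ⟨k, hk⟩ := Function.ne_iff.mp h
      refine ⟨0, ?_⟩
      filter_upwards [eventually_ge_atTop (a + (k + 1))] with n hn
      obtain ⟨m, rfl⟩ := Nat.exists_eq_add_of_le hn
      rw [mul_assoc, add_assoc, germ_step ht hT, W_orth h1 h2 k y y' _ _ hk (by omega) (by omega),
        zero_smul]

lemma exists_normalize {b : D} {c : ℝ} (h : ‖star b * b - (c : ℂ) • (1 : D)‖ < c) :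
    ∃ v, star (b * v) * (b * v) = 1 := by
  let := CStarAlgebra.spectralOrder D
  have := CStarAlgebra.spectralOrderedRing D
  have hc : 0 < c := (norm_nonneg _).trans_lt h
  have hc' : (c : ℂ) ≠ 0 := by exact_mod_cast hc.ne'
  have h1 : ‖(1 : D) - (c : ℂ)⁻¹ • (star b * b)‖ < 1 := by
    have e : (1 : D) - (c : ℂ)⁻¹ • (star b * b) = -(c : ℂ)⁻¹ • (star b * b - (c : ℂ) • (1 : D)) := by
      rw [smul_sub, smul_smul, neg_mul, inv_mul_cancel₀ hc']
      module
    rw [e, norm_smul, norm_neg, norm_inv, Complex.norm_real, Real.norm_eq_abs, abs_of_pos hc,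
      inv_mul_lt_iff₀ hc, mul_one]
    exact h
  have h2 : IsUnit ((c : ℂ)⁻¹ • (star b * b)) := by
    have := (Units.oneSub _ h1).isUnit
    simpa using this
  have h3 : IsUnit (star b * b) := by
    have := (IsUnit.smul (Units.mk0 (c : ℂ) hc') h2)
    rwa [Units.smul_def, Units.val_mk0, smul_smul, mul_inv_cancel₀ hc', one_smul] at this
  have h4 : IsStrictlyPositive (star b * b) := ⟨star_mul_self_nonneg b, h3⟩
  refine ⟨(star b * b) ^ (-(1 / 2) : ℝ), ?_⟩
  have h5 : IsSelfAdjoint ((star b * b) ^ (-(1 / 2) : ℝ)) := CFC.rpow_nonneg.isSelfAdjoint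
  have h6 := CFC.conjugate_rpow_neg_one_half _ h4
  rw [star_mul, h5.star_eq, ← h6]
  simp only [mul_assoc]

end Words

/-- The index set: aperiodic sequences. -/
abbrev X : Type := {y : ℕ → ℕ // Aper y}

/-- The Hilbert space of the model. -/
abbrev HX : Type := lp (fun _ : X => ℂ) 2

open Classical in
/-- The standard basis vectors. -/
noncomputable def δ (x : X) : HX := lp.single 2 x 1

lemma mul_app (S T : HX →L[ℂ] HX) (f : HX) : (S * T) f = S (T f) := rfl

open Classical in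
lemma inner_δ (x : X) (f : HX) : ⟪δ x, f⟫_ℂ = f x := by
  rw [δ, lp.inner_single_left]; simp

open Classical in
lemma δ_apply (x x' : X) : δ x x' = if x' = x then 1 else 0 := by
  rw [δ, lp.single_apply, Pi.single_apply]

lemma norm_δ (x : X) : ‖δ x‖ = 1 := by
  classical
  rw [δ, lp.norm_single (by norm_num)]; simp

lemma ext_δ {S T : HX →L[ℂ] HX} (h : ∀ x, S (δ x) = T (δ x)) : S = T := by
  classical
  refine lp.ext_continuousLinearMap (ENNReal.ofNat_ne_top (n := nat_lit 2)) fun x => ?_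
  ext1
  have := h x
  rw [δ] at this
  exact this

/-- Prepending a letter, on the index set. -/
def X.pre (i : ℕ) (x : X) : X := ⟨Vale.Agent.P070.pre i x.1, x.2.pre i⟩

lemma X.pre_eq {i j : ℕ} {x x' : X} : x.pre i = x'.pre j ↔ i = j ∧ x = x' := by
  constructor
  · intro h
    have h' := congrArg Subtype.val h
    exact ⟨congrFun h' 0, Subtype.ext (funext fun n => congrFun h' (n + 1))⟩
  · rintro ⟨rfl, rfl⟩; rfl

lemma orthonormal_pre (i : ℕ) : Orthonormal ℂ (fun x : X => δ (x.pre i)) := by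
  classical
  rw [orthonormal_iff_ite]
  intro x x'
  rw [inner_δ, δ_apply]
  simp [X.pre_eq]

/-- The generating isometries. -/
noncomputable def sOp (i : ℕ) : HX →L[ℂ] HX :=
  (orthonormal_pre i).orthogonalFamily.linearIsometry.toContinuousLinearMap

lemma sOp_δ (i : ℕ) (x : X) : sOp i (δ x) = δ (x.pre i) := by
  classical
  have := (orthonormal_pre i).orthogonalFamily.linearIsometry_apply_single (i := x) (1 : ℂ)
  rw [LinearIsometry.toSpanSingleton_apply, one_smul] at this
  rw [← this, sOp, δ]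
  rfl

lemma sOp_rel (i j : ℕ) (x x' : X) :
    (star (sOp i) * sOp j) (δ x) x' = δ (x.pre j) (x'.pre i) := by
  rw [← inner_δ x', ← inner_δ (x'.pre i), ← sOp_δ i x', ← sOp_δ j x, mul_app,
    ContinuousLinearMap.star_eq_adjoint, ContinuousLinearMap.adjoint_inner_right]

lemma sOp_iso (i : ℕ) : star (sOp i) * sOp i = 1 := by
  classical
  refine ext_δ fun x => lp.ext (funext fun x' => ?_)
  rw [sOp_rel, one_apply_eq_self, δ_apply, δ_apply]
  simp [X.pre_eq]

lemma sOp_orth (i j : ℕ) (h : i ≠ j) : star (sOp i) * sOp j = 0 := by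
  classical
  refine ext_δ fun x => lp.ext (funext fun x' => ?_)
  rw [sOp_rel, δ_apply]
  simp [X.pre_eq, h]

lemma W_δ (n : ℕ) : ∀ x : X, ∃ x' : X, W sOp x.1 n (δ x') = δ x := by
  induction n with
  | zero => exact fun x => ⟨x, rfl⟩
  | succ n ih =>
    intro x
    obtain ⟨x', h⟩ := ih ⟨fun k => x.1 (k + 1), x.2.tail⟩
    refine ⟨x', ?_⟩
    rw [W_succ', mul_app, h, sOp_δ]
    congr 1
    refine Subtype.ext (funext fun k => ?_)
    cases k <;> rfl

lemma inner_δ_sub_le (x : X) (T : HX →L[ℂ] HX) (c : ℂ) (n : ℕ) :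
    ‖⟪δ x, T (δ x)⟫_ℂ - c‖ ≤ ‖star (W sOp x.1 n) * T * W sOp x.1 n - c • (1 : HX →L[ℂ] HX)‖ := by
  obtain ⟨x', h⟩ := W_δ n x
  have e : ⟪δ x', (star (W sOp x.1 n) * T * W sOp x.1 n - c • (1 : HX →L[ℂ] HX)) (δ x')⟫_ℂ =
      ⟪δ x, T (δ x)⟫_ℂ - c := by
    rw [sub_apply, inner_sub_right, mul_app, mul_app, ContinuousLinearMap.star_eq_adjoint,
      ContinuousLinearMap.adjoint_inner_right, h, smul_apply, one_apply_eq_self, inner_smul_right,
      inner_self_eq_norm_sq_to_K, norm_δ]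
    simp
  rw [← e]
  refine (norm_inner_le_norm _ _).trans ?_
  rw [norm_δ, one_mul]
  refine (ContinuousLinearMap.le_opNorm _ _).trans ?_
  rw [norm_δ, mul_one]

/-- Operators compressed to a scalar along a given aperiodic sequence. -/
noncomputable def ConvSub (x : X) : Submodule ℂ (HX →L[ℂ] HX) where
  carrier := {T | Tendsto (fun n => star (W sOp x.1 n) * T * W sOp x.1 n) atTop
    (𝓝 (⟪δ x, T (δ x)⟫_ℂ • (1 : HX →L[ℂ] HX)))}
  add_mem' := fun {S T} hS hT => by
    have := Tendsto.add hS hT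
    simp only [Set.mem_ofPred_eq, mul_add, add_mul, add_apply, inner_add_right, add_smul]
    exact this
  zero_mem' := by simp
  smul_mem' := fun c T hT => by
    have := Tendsto.const_smul hT c
    simp only [Set.mem_ofPred_eq, mul_smul_comm, smul_mul_assoc, smul_apply, inner_smul_right,
      ← smul_smul]
    exact this

lemma isClosed_convSub (x : X) : IsClosed (ConvSub x : Set (HX →L[ℂ] HX)) := by
  refine isClosed_of_closure_subset fun T hT => ?_
  show Tendsto _ _ _
  rw [Metric.tendsto_atTop]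
  intro ε hε
  obtain ⟨S, hS, hd⟩ := Metric.mem_closure_iff.mp hT (ε / 3) (by positivity)
  rw [dist_eq_norm] at hd
  obtain ⟨N, hN⟩ := Metric.tendsto_atTop.mp hS (ε / 3) (by positivity)
  refine ⟨N, fun n hn => ?_⟩
  have h1 := hN n hn
  rw [dist_eq_norm] at h1 ⊢
  have e : star (W sOp x.1 n) * T * W sOp x.1 n - ⟪δ x, T (δ x)⟫_ℂ • (1 : HX →L[ℂ] HX) =
      (star (W sOp x.1 n) * S * W sOp x.1 n - ⟪δ x, S (δ x)⟫_ℂ • (1 : HX →L[ℂ] HX)) +
      (star (W sOp x.1 n) * (T - S) * W sOp x.1 n -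
        ⟪δ x, (T - S) (δ x)⟫_ℂ • (1 : HX →L[ℂ] HX)) := by
    rw [mul_sub, sub_mul, sub_apply, inner_sub_right, sub_smul]
    abel
  have h2 := norm_conj_le (W_iso sOp_iso x.1 n) (W_iso sOp_iso x.1 n) (T - S)
  have h3 : ‖⟪δ x, (T - S) (δ x)⟫_ℂ • (1 : HX →L[ℂ] HX)‖ ≤ ‖T - S‖ := by
    rw [norm_smul]
    refine (mul_le_of_le_one_right (norm_nonneg _) (norm_le_one_of_isometry (by simp))).trans ?_
    refine (norm_inner_le_norm _ _).trans ?_
    rw [norm_δ, one_mul]
    refine (ContinuousLinearMap.le_opNorm _ _).trans ?_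
    rw [norm_δ, mul_one]
  rw [e]
  refine (norm_add_le _ _).trans_lt ?_
  have h4 := norm_sub_le (star (W sOp x.1 n) * (T - S) * W sOp x.1 n)
    (⟪δ x, (T - S) (δ x)⟫_ℂ • (1 : HX →L[ℂ] HX))
  linarith

lemma Germ.mem_convSub {T : HX →L[ℂ] HX} (g : Germ sOp T) (x : X) : T ∈ ConvSub x := by
  obtain ⟨c, hc⟩ := g.eventually sOp_iso sOp_orth x.2
  obtain ⟨n, hn⟩ := hc.exists
  have h := inner_δ_sub_le x T c n
  rw [hn, sub_self, norm_zero, norm_le_zero_iff, sub_eq_zero] at h
  show Tendsto _ _ _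
  rw [h]
  exact tendsto_const_nhds.congr' (hc.mono fun _ h => h.symm)

/-- The base algebra. -/
noncomputable def Base : StarSubalgebra ℂ (HX →L[ℂ] HX) :=
  (StarAlgebra.adjoin ℂ (Set.range sOp)).topologicalClosure

instance : IsClosed (Base : Set (HX →L[ℂ] HX)) := StarSubalgebra.isClosed_topologicalClosure _

lemma coe_adjoin : (StarAlgebra.adjoin ℂ (Set.range sOp) : Set (HX →L[ℂ] HX)) =
    Submodule.span ℂ (Submonoid.closure (Set.range sOp ∪ star (Set.range sOp)) :
      Set (HX →L[ℂ] HX)) := by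
  rw [← Algebra.adjoin_eq_span]; rfl

lemma base_conv (T : Base) (x : X) : T.1 ∈ ConvSub x := by
  refine closure_minimal ?_ (isClosed_convSub x) T.2
  show (StarAlgebra.adjoin ℂ (Set.range sOp) : Set (HX →L[ℂ] HX)) ⊆ _
  rw [coe_adjoin]
  refine Submodule.span_le.mpr fun S hS => Germ.mem_convSub ?_ x
  induction hS using Submonoid.closure_induction with
  | mem S hS =>
    rcases hS with ⟨i, rfl⟩ | hS
    · exact germ_s i
    · obtain ⟨i, hi⟩ := Set.mem_star.mp hS
      rw [← star_star S, ← hi]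
      exact germ_star_s sOp_iso sOp_orth i
  | one => exact germ_one
  | mul S S' _ _ h1 h2 => exact h1.mul sOp_iso h2

instance : TopologicalSpace.SeparableSpace Base := by
  refine TopologicalSpace.IsSeparable.separableSpace ?_
  refine TopologicalSpace.IsSeparable.closure ?_
  show TopologicalSpace.IsSeparable (StarAlgebra.adjoin ℂ (Set.range sOp) : Set (HX →L[ℂ] HX))
  rw [coe_adjoin]
  refine TopologicalSpace.IsSeparable.span (Set.Countable.isSeparable ?_)
  have hG : (Set.range sOp ∪ star (Set.range sOp)).Countable := by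
    refine (Set.countable_range _).union ?_
    refine (Set.countable_range fun i => star (sOp i)).mono fun S hS => ?_
    obtain ⟨i, hi⟩ := Set.mem_star.mp hS
    exact ⟨i, by simp only [hi, star_star]⟩
  generalize Set.range sOp ∪ star (Set.range sOp) = G at hG
  have := hG.to_subtype
  refine (Set.countable_range fun l : List G => (l.map Subtype.val).prod).mono fun S hS => ?_
  obtain ⟨l, hl, rfl⟩ := Submonoid.exists_list_of_mem_closure hS
  exact ⟨l.attachWith _ hl, by simp⟩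

/-- The generators, as elements of the base algebra. -/
noncomputable def sB (i : ℕ) : Base :=
  ⟨sOp i, StarSubalgebra.le_topologicalClosure _ (StarAlgebra.subset_adjoin ℂ _ ⟨i, rfl⟩)⟩

lemma sB_iso (i : ℕ) : star (sB i) * sB i = 1 := Subtype.ext (sOp_iso i)

lemma sB_orth (i j : ℕ) (h : i ≠ j) : star (sB i) * sB j = 0 := Subtype.ext (sOp_orth i j h)

lemma coe_W (y : ℕ → ℕ) (n : ℕ) : (W sB y n : Base).1 = W sOp y n := by
  induction n with
  | zero => rfl
  | succ n ih => rw [W_succ, W_succ, ← ih]; rfl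

lemma base_tendsto (T : Base) (x : X) :
    Tendsto (fun n => star (W sB x.1 n) * T * W sB x.1 n) atTop
      (𝓝 (⟪δ x, T.1 (δ x)⟫_ℂ • (1 : Base))) := by
  rw [tendsto_subtype_rng]
  refine Tendsto.congr (fun n => ?_) (base_conv T x)
  rw [← coe_W]; rfl

lemma base_pinf : PInf Base where
  two := ⟨sB 0, sB 1, sB_iso 0, sB_iso 1, sB_orth 0 1 (by norm_num)⟩
  pi := fun a ha => by
    obtain ⟨x, hx⟩ : ∃ x, a.1 (δ x) ≠ 0 := by
      by_contra h
      push Not at h
      exact ha (Subtype.ext (ext_δ h))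
    have h1 := base_tendsto (star a * a) x
    have h2 : ⟪δ x, (star a * a : Base).1 (δ x)⟫_ℂ = ((‖a.1 (δ x)‖ ^ 2 : ℝ) : ℂ) := by
      show ⟪δ x, (star a.1 * a.1) (δ x)⟫_ℂ = _
      rw [mul_app, ContinuousLinearMap.star_eq_adjoint, ContinuousLinearMap.adjoint_inner_right,
        inner_self_eq_norm_sq_to_K]
      simp
    rw [h2, Metric.tendsto_atTop] at h1
    obtain ⟨N, hN⟩ := h1 (‖a.1 (δ x)‖ ^ 2) (by positivity)
    have h3 := hN N le_rfl
    rw [dist_eq_norm] at h3
    obtain ⟨v, hv⟩ := exists_normalize (b := a * W sB x.1 N) (c := ‖a.1 (δ x)‖ ^ 2) (by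
      rw [star_mul]
      simpa only [mul_assoc] using h3)
    exact ⟨W sB x.1 N * v, by rw [← mul_assoc a]; exact hv⟩

/-- The identity sequence. -/
def xid : X := ⟨fun n => n, aper_id⟩

/-- A peak of the base algebra. -/
noncomputable def basePeak : Peak Base where
  r := sB
  s := fun n => sB (n + 1)
  φ := fun T => ⟪δ xid, T.1 (δ xid)⟫_ℂ
  hr := sB_iso
  hs := fun n => sB_iso _
  hrs := fun n => sB_orth _ _ (by omega)
  conv := fun T => base_tendsto T xid

lemma basePeak_fixed : basePeak.Fixed Base.subtype (δ xid) := fun n => by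
  obtain ⟨x', h⟩ := W_δ n xid
  have e : (basePeak.p n).1 = W sOp xid.1 n * star (W sOp xid.1 n) := by
    rw [← coe_W]; rfl
  show (basePeak.p n).1 (δ xid) = δ xid
  rw [e, ← h, ← mul_app, mul_assoc, W_iso sOp_iso, mul_one]

instance : Nontrivial Base := ⟨⟨1, 0, fun h => by
  have h1 : (1 : HX →L[ℂ] HX) = 0 := congrArg Subtype.val h
  have h2 := norm_δ xid
  rw [← one_apply_eq_self (F := HX →L[ℂ] HX) (δ xid), h1] at h2
  simp at h2⟩⟩

end Vale.Agent.P070
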