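import Vale.Agent.P070.Ambient
import Vale.Agent.P070.Model

/-! Assembly of the counterexample. -/

namespace Vale.Agent.P070

open scoped InnerProductSpace ComplexOrder
open Filter Topology

variable {A : Type*} [CStarAlgebra A] {K : Type*} [NormedAddCommGroup K] [InnerProductSpace ℂ K]
  [CompleteSpace K]

/-- A nonzero irreducible representation of a unital algebra is unital. -/
lemma exists_unital (π : A →⋆ₙₐ[ℂ] (K →L[ℂ] K)) (h0 : π ≠ 0) (h : Irr π) :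
    Nontrivial K ∧ ∃ σ : A →⋆ₐ[ℂ] (K →L[ℂ] K), ∀ a, σ a = π a := by
  obtain ⟨a, x, hx⟩ : ∃ a x, π a x ≠ 0 := by
    by_contra hcon
    push Not at hcon
    exact h0 (NonUnitalStarAlgHom.ext fun a => ContinuousLinearMap.ext (hcon a))
  have h1 : π 1 - 1 = 0 := by
    refine h.eq_zero (fun b => ?_) hx ?_
    · refine Commute.sub_left ?_ (Commute.one_left _)
      rw [Commute, SemiconjBy, ← map_mul, ← map_mul, one_mul, mul_one]
    · have : π 1 (π a x) = π a x := by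
        conv_rhs => rw [← one_mul a, map_mul]
        rfl
      rw [sub_apply, this, one_apply_eq_self, sub_self]
  have h2 : π 1 = 1 := sub_eq_zero.mp h1
  refine ⟨⟨⟨_, _, hx⟩⟩, ⟨
    { toFun := π
      map_one' := h2
      map_mul' := map_mul π
      map_zero' := map_zero π
      map_add' := map_add π
      commutes' := fun c => by
        rw [Algebra.algebraMap_eq_smul_one, Algebra.algebraMap_eq_smul_one, map_smul, h2]
      map_star' := map_star π }, fun _ => rfl⟩⟩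

/-- With infinitely many isometries with orthogonal ranges, the image of the unit under a
representation is compact only if it is zero. -/
lemma not_compact (s : ℕ → A) (h1 : ∀ i, star (s i) * s i = 1)
    (h2 : ∀ i j, i ≠ j → star (s i) * s j = 0) (φ : A →⋆ₙₐ[ℂ] (K →L[ℂ] K))
    (hc : IsCompactOperator (φ 1)) : φ 1 = 0 := by
  by_contra h0
  obtain ⟨v, hv⟩ : ∃ v, φ 1 v ≠ 0 := by
    by_contra hcon
    push Not at hcon
    exact h0 (ContinuousLinearMap.ext hcon)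
  have hmul : ∀ a b x, φ (a * b) x = φ a (φ b x) := fun a b x => by rw [map_mul]; rfl
  have hin : ∀ a b x, ⟪φ a x, φ b x⟫_ℂ = ⟪x, φ (star a * b) x⟫_ℂ := fun a b x => by
    rw [hmul, map_star, ContinuousLinearMap.star_eq_adjoint,
      ContinuousLinearMap.adjoint_inner_right]
  have hn : ∀ i, ‖φ (s i) v‖ = ‖φ 1 v‖ := fun i => by
    rw [@norm_eq_sqrt_re_inner ℂ, @norm_eq_sqrt_re_inner ℂ, hin, hin, h1, star_one, mul_one]
  have hd : ∀ i j, i ≠ j → ‖φ 1 v‖ ≤ ‖φ (s i) v - φ (s j) v‖ := fun i j hij => by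
    have : ‖φ (s i) v - φ (s j) v‖ ^ 2 = 2 * ‖φ 1 v‖ ^ 2 := by
      rw [@norm_sub_sq ℂ, hin, h2 i j hij, hn, hn]
      simp
      ring
    refine le_of_sq_le_sq ?_ (norm_nonneg _)
    rw [this]
    nlinarith [sq_nonneg ‖φ 1 v‖]
  obtain ⟨C, hC, hsub⟩ := IsCompactOperator.image_closedBall_subset_compact
    (f := (φ 1 : K →ₗ[ℂ] K)) hc ‖φ 1 v‖
  have hmem : ∀ i, φ (s i) v ∈ C := fun i =>
    hsub ⟨φ (s i) v, by simp [hn], by
      show φ 1 (φ (s i) v) = _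
      rw [← hmul, one_mul]⟩
  obtain ⟨y, -, g, hg, hlim⟩ := hC.tendsto_subseq hmem
  obtain ⟨N, hN⟩ := Metric.cauchySeq_iff'.mp hlim.cauchySeq ‖φ 1 v‖ (norm_pos_iff.mpr hv)
  have h3 := hN (N + 1) (Nat.le_succ N)
  rw [dist_eq_norm] at h3
  exact absurd (hd _ _ (hg (Nat.lt_succ_self N)).ne') (not_le.mpr h3)

universe u v w

theorem counterexample :
    ∃ (A : Type) (_ : CStarAlgebra A), Nontrivial A ∧
      (∃ (K : Type) (_ : NormedAddCommGroup K) (_ : InnerProductSpace ℂ K) (_ : CompleteSpace K)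
        (π : A →⋆ₙₐ[ℂ] (K →L[ℂ] K)), π ≠ 0 ∧ Irr π) ∧
      (∀ (H : Type u) [NormedAddCommGroup H] [InnerProductSpace ℂ H] [CompleteSpace H]
        (K : Type v) [NormedAddCommGroup K] [InnerProductSpace ℂ K] [CompleteSpace K]
        (π : A →⋆ₙₐ[ℂ] (H →L[ℂ] H)) (σ : A →⋆ₙₐ[ℂ] (K →L[ℂ] K)),
        π ≠ 0 → Irr π → σ ≠ 0 → Irr σ →
        ∃ U : H ≃ₗᵢ[ℂ] K, ∀ a x, U (π a x) = σ a (U x)) ∧
      ∀ (H : Type w) [NormedAddCommGroup H] [InnerProductSpace ℂ H] [CompleteSpace H]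
        (φ : A →⋆ₙₐ[ℂ] (H →L[ℂ] H)), IsCompactOperator (φ 1) → φ 1 = 0 := by
  obtain ⟨A, iA, D, H, i1, i2, i3, π, Ω, hΩ, hf⟩ :=
    exists_setup basePeak Base.subtype (δ xid) (norm_δ _) basePeak_fixed
  obtain ⟨K, j1, j2, j3, σ, hK, hσ⟩ := D.exists_irr π hΩ hf
  have hne : (σ : A →⋆ₙₐ[ℂ] (K →L[ℂ] K)) ≠ 0 := fun h => by
    have h1 : σ 1 = 0 := DFunLike.congr_fun h 1
    rw [map_one] at h1
    exact one_ne_zero h1
  refine ⟨A, iA, ?_, ⟨K, j1, j2, j3, σ, hne, hσ⟩, ?_, ?_⟩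
  · refine ⟨⟨1, 0, fun h => ?_⟩⟩
    have h1 : σ 1 = σ 0 := congrArg σ h
    rw [map_one, map_zero] at h1
    exact one_ne_zero h1
  · intro H _ _ _ K _ _ _ π₁ π₂ h1 h1' h2 h2'
    obtain ⟨n1, σ₁, e₁⟩ := exists_unital π₁ h1 h1'
    obtain ⟨n2, σ₂, e₂⟩ := exists_unital π₂ h2 h2'
    have f₁ : (σ₁ : A → _) = π₁ := funext e₁
    have f₂ : (σ₂ : A → _) = π₂ := funext e₂
    obtain ⟨U, hU⟩ := D.equivalent base_pinf σ₁ σ₂ (f₁ ▸ h1') (f₂ ▸ h2')
    exact ⟨U, fun a x => by rw [← e₁, ← e₂, hU]⟩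
  · intro H _ _ _ φ hφ
    exact not_compact (fun i => D.ι (sB i))
      (fun i => by rw [← map_star, ← map_mul, sB_iso, map_one])
      (fun i j h => by rw [← map_star, ← map_mul, sB_orth i j h, map_zero]) φ hφ

end Vale.Agent.P070
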