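import Vale.Agent.P070.Basic

/-! Peaks: nested sequences of isometries that compress every element to a scalar in the limit. -/

set_option linter.unusedSimpArgs false

namespace Vale.Agent.P070

open scoped InnerProductSpace ComplexOrder
open Filter Topology

variable {A : Type*} [CStarAlgebra A]

/-- The products `r 0 * r 1 * ⋯ * r (n - 1)`. -/
def prodSeq (r : ℕ → A) : ℕ → A
  | 0 => 1
  | n + 1 => prodSeq r n * r n

/-- A nested sequence of isometries, with room at every step, compressing every element of the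
algebra to a scalar in the limit. -/
structure Peak (A : Type*) [CStarAlgebra A] where
  r : ℕ → A
  s : ℕ → A
  φ : A → ℂ
  hr : ∀ n, star (r n) * r n = 1
  hs : ∀ n, star (s n) * s n = 1
  hrs : ∀ n, star (r n) * s n = 0
  conv : ∀ a, Tendsto (fun n => star (prodSeq r n) * a * prodSeq r n) atTop (𝓝 (φ a • (1 : A)))

lemma norm_le_one_of_isometry {t : A} (ht : star t * t = 1) : ‖t‖ ≤ 1 := by
  have h1 : ‖t‖ * ‖t‖ = ‖(1 : A)‖ := by rw [← CStarRing.norm_star_mul_self, ht]
  have h2 : ‖(1 : A)‖ ≤ 1 := by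
    rcases subsingleton_or_nontrivial A with h | h
    · simp [Subsingleton.elim (1 : A) 0]
    · simp
  nlinarith [norm_nonneg t]

lemma norm_conj_le {v w : A} (hv : star v * v = 1) (hw : star w * w = 1) (x : A) :
    ‖star v * x * w‖ ≤ ‖x‖ := by
  have h1 := norm_le_one_of_isometry hv
  have h2 := norm_le_one_of_isometry hw
  calc ‖star v * x * w‖ ≤ ‖star v‖ * ‖x‖ * ‖w‖ := norm_mul₃_le
    _ ≤ 1 * ‖x‖ * 1 := by rw [norm_star]; gcongr
    _ = ‖x‖ := by ring

lemma prodSeq_isometry {r : ℕ → A} (hr : ∀ n, star (r n) * r n = 1) (n : ℕ) :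
    star (prodSeq r n) * prodSeq r n = 1 := by
  induction n with
  | zero => simp [prodSeq]
  | succ n ih =>
    simp only [prodSeq, star_mul]
    rw [mul_assoc, ← mul_assoc (star (prodSeq r n)), ih, one_mul, hr]

lemma prodSeq_factor {r : ℕ → A} (hr : ∀ n, star (r n) * r n = 1) {m n : ℕ} (h : m ≤ n) :
    ∃ w : A, star w * w = 1 ∧ prodSeq r n = prodSeq r m * w := by
  induction n, h using Nat.le_induction with
  | base => exact ⟨1, by simp, by simp⟩
  | succ n _ ih =>
    obtain ⟨w, hw, e⟩ := ih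
    refine ⟨w * r n, ?_, by rw [prodSeq, e, mul_assoc]⟩
    rw [star_mul, mul_assoc, ← mul_assoc (star w), hw, one_mul, hr]

namespace Peak

variable (τ τ' : Peak A)

/-- The isometries of a peak. -/
def t (n : ℕ) : A := prodSeq τ.r n

/-- The range projections of a peak. -/
def p (n : ℕ) : A := τ.t n * star (τ.t n)

lemma t_iso (n : ℕ) : star (τ.t n) * τ.t n = 1 := prodSeq_isometry τ.hr n

lemma t_succ (n : ℕ) : τ.t (n + 1) = τ.t n * τ.r n := rfl

lemma t_zero : τ.t 0 = 1 := rfl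

lemma t_factor {m n : ℕ} (h : m ≤ n) : ∃ w : A, star w * w = 1 ∧ τ.t n = τ.t m * w :=
  prodSeq_factor τ.hr h

lemma p_sa (n : ℕ) : IsSelfAdjoint (τ.p n) := IsSelfAdjoint.mul_star_self _

lemma p_mul_t {m n : ℕ} (h : m ≤ n) : τ.p m * τ.t n = τ.t n := by
  obtain ⟨w, _, e⟩ := τ.t_factor h
  rw [e, p, mul_assoc, ← mul_assoc (star (τ.t m)), t_iso, one_mul]

lemma t_mul_p {m n : ℕ} (h : m ≤ n) : star (τ.t n) * τ.p m = star (τ.t n) := by
  have := congrArg star (τ.p_mul_t h)
  rwa [star_mul, (τ.p_sa m).star_eq] at this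

lemma p_mul_p {m n : ℕ} (h : m ≤ n) : τ.p m * τ.p n = τ.p n := by
  rw [p.eq_1 τ n, ← mul_assoc, τ.p_mul_t h]

lemma conv' (a : A) :
    Tendsto (fun n => star (τ.t n) * a * τ.t n) atTop (𝓝 (τ.φ a • (1 : A))) := τ.conv a

/-- Two peaks are orthogonal if mixed compressions tend to zero. -/
def Orth : Prop := ∀ a : A, Tendsto (fun n => star (τ'.t n) * a * τ.t n) atTop (𝓝 0)

lemma Orth.symm {τ τ' : Peak A} (h : Orth τ τ') : Orth τ' τ := fun a => by
  have := (h (star a)).star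
  simpa [mul_assoc] using this

lemma not_orth_self [Nontrivial A] : ¬ Orth τ τ := fun h => by
  have := h 1
  simp only [mul_one, t_iso] at this
  exact one_ne_zero (tendsto_nhds_unique tendsto_const_nhds this)

variable {K : Type*} [NormedAddCommGroup K] [InnerProductSpace ℂ K] [CompleteSpace K]
  (σ : A →⋆ₐ[ℂ] (K →L[ℂ] K))

/-- A vector fixed by all range projections of a peak. -/
def Fixed (η : K) : Prop := ∀ n, σ (τ.p n) η = η

variable {τ τ' σ}

lemma Fixed.smul {η : K} (h : τ.Fixed σ η) (c : ℂ) : τ.Fixed σ (c • η) := fun n => by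
  rw [map_smul, h n]

lemma Fixed.aux {η : K} (h : τ.Fixed σ η) (a : A) (n : ℕ) :
    σ (τ'.p n) (σ a η) = σ (τ'.t n * (star (τ'.t n) * a * τ.t n) * star (τ.t n)) η := by
  conv_lhs => rw [← h n]
  rw [← rep_mul_apply, ← rep_mul_apply]
  congr 2
  simp only [p, mul_assoc]

lemma norm_sandwich_le (σ : A →⋆ₐ[ℂ] (K →L[ℂ] K)) {v w : A} (hv : star v * v = 1)
    (hw : star w * w = 1) (x : A) (η : K) : ‖σ (v * x * star w) η‖ ≤ ‖x‖ * ‖η‖ := by
  refine (norm_rep_apply_le σ _ _).trans (mul_le_mul_of_nonneg_right ?_ (norm_nonneg _))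
  have h1 := norm_le_one_of_isometry hv
  have h2 := norm_le_one_of_isometry hw
  calc ‖v * x * star w‖ ≤ ‖v‖ * ‖x‖ * ‖star w‖ := norm_mul₃_le
    _ ≤ 1 * ‖x‖ * 1 := by rw [norm_star]; gcongr
    _ = ‖x‖ := by ring

lemma Fixed.tendsto_self {η : K} (h : τ.Fixed σ η) (a : A) :
    Tendsto (fun n => σ (τ.p n) (σ a η)) atTop (𝓝 (τ.φ a • η)) := by
  rw [tendsto_iff_norm_sub_tendsto_zero]
  have h1 := (tendsto_iff_norm_sub_tendsto_zero.mp (τ.conv' a)).mul_const ‖η‖
  rw [zero_mul] at h1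
  refine squeeze_zero (fun _ => norm_nonneg _) (fun n => ?_) h1
  refine le_trans (le_of_eq ?_) (norm_sandwich_le σ (τ.t_iso n) (τ.t_iso n) _ η)
  congr 1
  rw [h.aux (τ' := τ) a n, mul_sub, sub_mul, map_sub, sub_apply]
  congr 1
  rw [mul_smul_comm, smul_mul_assoc, mul_one, map_smul, smul_apply]
  exact congrArg _ (h n).symm

lemma Fixed.tendsto_orth {η : K} (h : τ.Fixed σ η) (ho : Orth τ τ') (a : A) :
    Tendsto (fun n => σ (τ'.p n) (σ a η)) atTop (𝓝 0) := by
  rw [tendsto_zero_iff_norm_tendsto_zero]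
  have h1 := (tendsto_zero_iff_norm_tendsto_zero.mp (ho a)).mul_const ‖η‖
  rw [zero_mul] at h1
  refine squeeze_zero (fun _ => norm_nonneg _) (fun n => ?_) h1
  rw [h.aux (τ' := τ') a n]
  exact norm_sandwich_le σ (τ'.t_iso n) (τ.t_iso n) _ η

lemma Fixed.inner_eq {η x y : K} (h : τ.Fixed σ η)
    (hx : Tendsto (fun n => σ (τ.p n) x) atTop (𝓝 y)) : ⟪η, x⟫_ℂ = ⟪η, y⟫_ℂ := by
  have h1 : Tendsto (fun n => ⟪η, σ (τ.p n) x⟫_ℂ) atTop (𝓝 ⟪η, y⟫_ℂ) :=
    Filter.Tendsto.inner tendsto_const_nhds hx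
  have h2 : ∀ n, ⟪η, σ (τ.p n) x⟫_ℂ = ⟪η, x⟫_ℂ := fun n => by
    rw [inner_rep_right, (τ.p_sa n).star_eq, h n]
  simp only [h2] at h1
  exact tendsto_nhds_unique tendsto_const_nhds h1

lemma Fixed.inner_self {η : K} (h : τ.Fixed σ η) (hη : ‖η‖ = 1) (a : A) :
    ⟪η, σ a η⟫_ℂ = τ.φ a := by
  rw [h.inner_eq (h.tendsto_self a), inner_smul_right, inner_self_eq_norm_sq_to_K, hη]
  simp

lemma exists_limit (τ : Peak A) (σ : A →⋆ₐ[ℂ] (K →L[ℂ] K)) (x : K) :
    ∃ y, Tendsto (fun n => σ (τ.p n) x) atTop (𝓝 y) ∧ τ.Fixed σ y :=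
  proj_limit (fun n => σ (τ.p n)) (fun n => (τ.p_sa n).map σ)
    (fun m n h => by rw [← map_mul, τ.p_mul_p h]) x

lemma Fixed.exists_unit {η : K} (h : τ.Fixed σ η) (hη : η ≠ 0) :
    ∃ η' : K, ‖η'‖ = 1 ∧ τ.Fixed σ η' :=
  ⟨((‖η‖⁻¹ : ℝ) : ℂ) • η, by
    rw [norm_smul, Complex.norm_real, norm_inv, norm_norm,
      inv_mul_cancel₀ (norm_ne_zero_iff.mpr hη)], h.smul _⟩

/-- A fixed unit vector of a peak gives one for every non-orthogonal peak. -/
lemma Fixed.of_not_orth {η : K} (h : τ.Fixed σ η) (hη : ‖η‖ = 1) (ho : ¬ Orth τ τ') :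
    ∃ η' : K, ‖η'‖ = 1 ∧ τ'.Fixed σ η' := by
  by_contra hcon
  apply ho
  intro a
  obtain ⟨y, hy, hyf⟩ := τ'.exists_limit σ (σ a η)
  have hy0 : y = 0 := by
    by_contra h0
    exact hcon (hyf.exists_unit h0)
  rw [hy0] at hy
  rw [Metric.tendsto_atTop]
  intro ε hε
  obtain ⟨m, hm⟩ := Metric.tendsto_atTop.mp hy ε hε
  have hm' := hm m le_rfl
  rw [dist_zero_right] at hm'
  set b := star a * τ'.p m * a with hb
  have h1 : ‖τ.φ b‖ < ε ^ 2 := by
    have e : b = star (τ'.p m * a) * (τ'.p m * a) := by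
      rw [star_mul, (τ'.p_sa m).star_eq, mul_assoc, ← mul_assoc (τ'.p m), τ'.p_mul_p le_rfl, hb,
        mul_assoc]
    rw [← h.inner_self hη, e, rep_mul_apply, ← inner_rep_left, inner_self_eq_norm_sq_to_K,
      rep_mul_apply]
    simp only [Complex.coe_algebraMap, norm_pow, Complex.norm_real, norm_norm]
    exact pow_lt_pow_left₀ hm' (norm_nonneg _) two_ne_zero
  have h2 : ‖τ.φ b • (1 : A)‖ < ε ^ 2 := by
    refine lt_of_le_of_lt ?_ h1
    rw [norm_smul]
    exact mul_le_of_le_one_right (norm_nonneg _) (norm_le_one_of_isometry (by simp))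
  have h3 : ∀ᶠ n in atTop, ‖star (τ.t n) * b * τ.t n‖ < ε ^ 2 :=
    (τ.conv' b).norm.eventually (gt_mem_nhds h2)
  obtain ⟨N, hN⟩ := eventually_atTop.mp h3
  refine ⟨max m N, fun n hn => ?_⟩
  rw [dist_zero_right]
  obtain ⟨w, hw, e⟩ := τ'.t_factor (le_of_max_le_left hn)
  have h4 : ‖star (τ'.t m) * a * τ.t n‖ < ε := by
    have h5 := hN n (le_of_max_le_right hn)
    have e2 : star (τ.t n) * b * τ.t n =
        star (star (τ'.t m) * a * τ.t n) * (star (τ'.t m) * a * τ.t n) := by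
      simp only [hb, p, star_mul, star_star, mul_assoc]
    rw [e2, CStarRing.norm_star_mul_self, ← sq] at h5
    exact lt_of_pow_lt_pow_left₀ 2 hε.le h5
  refine lt_of_le_of_lt ?_ h4
  have e3 : star (τ'.t n) * a * τ.t n = star w * (star (τ'.t m) * a * τ.t n) * 1 := by
    rw [e]; simp only [star_mul, mul_assoc, mul_one]
  rw [e3]
  exact norm_conj_le hw (by simp) _

end Peak

/-- Two isometries with room are related by a unitary. -/
lemma exists_unitary_link {r s r' s' : A} (hr : star r * r = 1) (hs : star s * s = 1)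
    (hrs : star r * s = 0) (hr' : star r' * r' = 1) (hs' : star s' * s' = 1)
    (hrs' : star r' * s' = 0) :
    ∃ W : A, star W * W = 1 ∧ W * star W = 1 ∧ W * r = r' := by
  have hsr : star s * r = 0 := by simpa using congrArg star hrs
  have hsr' : star s' * r' = 0 := by simpa using congrArg star hrs'
  have a1 : ∀ x, star r * (r * x) = x := fun x => by rw [← mul_assoc, hr, one_mul]
  have a2 : ∀ x, star s * (s * x) = x := fun x => by rw [← mul_assoc, hs, one_mul]
  have a3 : ∀ x, star r * (s * x) = 0 := fun x => by rw [← mul_assoc, hrs, zero_mul]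
  have a4 : ∀ x, star s * (r * x) = 0 := fun x => by rw [← mul_assoc, hsr, zero_mul]
  have b1 : ∀ x, star r' * (r' * x) = x := fun x => by rw [← mul_assoc, hr', one_mul]
  have b2 : ∀ x, star s' * (s' * x) = x := fun x => by rw [← mul_assoc, hs', one_mul]
  have b3 : ∀ x, star r' * (s' * x) = 0 := fun x => by rw [← mul_assoc, hrs', zero_mul]
  have b4 : ∀ x, star s' * (r' * x) = 0 := fun x => by rw [← mul_assoc, hsr', zero_mul]
  refine ⟨r' * star r + s' * r * star r' * star s + s' * s * star s' * star s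
    + (1 - r' * star r' - s' * star s') * star s + s' * (1 - r * star r - s * star s),
    ?_, ?_, ?_⟩
  · simp only [star_add, star_mul, star_sub, star_one, star_star, mul_add, add_mul, mul_sub,
      sub_mul, mul_assoc, mul_one, one_mul, a1, a2, a3, a4, b1, b2, b3, b4, hr, hs, hrs, hsr, hr',
      hs', hrs', hsr', mul_zero, zero_mul]
    abel
  · simp only [star_add, star_mul, star_sub, star_one, star_star, mul_add, add_mul, mul_sub,
      sub_mul, mul_assoc, mul_one, one_mul, a1, a2, a3, a4, b1, b2, b3, b4, hr, hs, hrs, hsr, hr',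
      hs', hrs', hsr', mul_zero, zero_mul]
    abel
  · simp only [mul_add, add_mul, mul_sub, sub_mul, mul_assoc, mul_one, one_mul, hr, hsr, mul_zero]
    abel

/-- The unitaries linking two peaks. -/
lemma Peak.exists_link (τ τ' : Peak A) :
    ∃ U : ℕ → A, (∀ n, star (U n) * U n = 1) ∧ (∀ n, U n * star (U n) = 1) ∧
      (∀ m n, m ≤ n → U n * (1 - τ.p m) = U m * (1 - τ.p m)) ∧
      (∀ m n, m ≤ n → (1 - τ'.p m) * U n = U m * (1 - τ.p m)) := by
  choose W hW1 hW2 hW3 using fun n =>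
    exists_unitary_link (τ.hr n) (τ.hs n) (τ.hrs n) (τ'.hr n) (τ'.hs n) (τ'.hrs n)
  let Z : ℕ → A := fun n => 1 - τ.p n + τ.t n * W n * star (τ.t n)
  have a1 : ∀ n x, star (τ.t n) * (τ.t n * x) = x := fun n x => by
    rw [← mul_assoc, τ.t_iso, one_mul]
  have a2 : ∀ n x, star (W n) * (W n * x) = x := fun n x => by rw [← mul_assoc, hW1, one_mul]
  have a3 : ∀ n x, W n * (star (W n) * x) = x := fun n x => by rw [← mul_assoc, hW2, one_mul]
  have hZ1 : ∀ n, star (Z n) * Z n = 1 := fun n => by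
    simp only [Z, Peak.p, star_add, star_mul, star_sub, star_one, star_star, mul_add, add_mul,
      mul_sub, sub_mul, mul_assoc, mul_one, one_mul, a1, a2]
    abel
  have hZ2 : ∀ n, Z n * star (Z n) = 1 := fun n => by
    simp only [Z, Peak.p, star_add, star_mul, star_sub, star_one, star_star, mul_add, add_mul,
      mul_sub, sub_mul, mul_assoc, mul_one, one_mul, a1, a3]
    abel
  have hZ3 : ∀ m n, m ≤ n → Z n * (1 - τ.p m) = 1 - τ.p m := fun m n h => by
    have e1 : star (τ.t n) * (1 - τ.p m) = 0 := by rw [mul_sub, mul_one, τ.t_mul_p h, sub_self]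
    simp only [Z]
    rw [add_mul, mul_assoc _ (star (τ.t n)), e1, mul_zero, add_zero, sub_mul, one_mul,
      Peak.p.eq_1 τ n, mul_assoc, e1, mul_zero, sub_zero]
  have hZ4 : ∀ n, Z n * τ.t n = τ.t n * W n := fun n => by
    simp only [Z]
    rw [add_mul, sub_mul, one_mul, τ.p_mul_t le_rfl, sub_self, zero_add, mul_assoc, τ.t_iso,
      mul_one]
  have hU1 : ∀ n, star (prodSeq Z n) * prodSeq Z n = 1 := prodSeq_isometry hZ1
  have hU2 : ∀ n, prodSeq Z n * star (prodSeq Z n) = 1 := fun n => by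
    induction n with
    | zero => simp [prodSeq]
    | succ n ih =>
      simp only [prodSeq, star_mul]
      rw [mul_assoc, ← mul_assoc (Z n), hZ2, one_mul, ih]
  have hU3 : ∀ n, prodSeq Z n * τ.t n = τ'.t n := fun n => by
    induction n with
    | zero => simp [prodSeq, Peak.t_zero]
    | succ n ih =>
      rw [prodSeq, τ.t_succ, τ'.t_succ, mul_assoc, ← mul_assoc (Z n), hZ4, ← mul_assoc,
        ← mul_assoc, ih, mul_assoc, hW3]
  have hU4 : ∀ m n, m ≤ n → prodSeq Z n * (1 - τ.p m) = prodSeq Z m * (1 - τ.p m) := by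
    intro m n h
    induction n, h using Nat.le_induction with
    | base => rfl
    | succ n h ih => rw [prodSeq, mul_assoc, hZ3 m n h, ih]
  refine ⟨prodSeq Z, hU1, hU2, hU4, fun m n h => ?_⟩
  have hq : (1 - τ.p m) * (1 - τ.p m) = 1 - τ.p m := by
    rw [mul_sub, mul_one, sub_mul, one_mul, τ.p_mul_p le_rfl, sub_self, sub_zero]
  have hqs : star (1 - τ.p m) = 1 - τ.p m := by rw [star_sub, star_one, (τ.p_sa m).star_eq]
  have e1 : ∀ k, prodSeq Z k * (1 - τ.p m) * star (prodSeq Z k) =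
      (prodSeq Z k * (1 - τ.p m)) * star (prodSeq Z k * (1 - τ.p m)) := fun k => by
    rw [star_mul, hqs, mul_assoc (prodSeq Z k) _ (_ * _), ← mul_assoc (1 - τ.p m), hq, mul_assoc]
  have e2 : prodSeq Z m * (1 - τ.p m) * star (prodSeq Z m) = 1 - τ'.p m := by
    rw [mul_sub, mul_one, sub_mul, hU2, Peak.p, Peak.p, ← hU3, star_mul]
    simp only [mul_assoc]
  have e3 : prodSeq Z n * (1 - τ.p m) * star (prodSeq Z n) = 1 - τ'.p m := by
    rw [e1, hU4 m n h, ← e1, e2]
  rw [← e3, mul_assoc, hU1, mul_one, hU4 m n h]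

end Vale.Agent.P070
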