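import Vale.Agent.P070.Excise

/-! Uniqueness of the irreducible representation of the algebra generated by the base algebra and
the linking unitaries. -/

set_option linter.unusedSimpArgs false

namespace Vale.Agent.P070

open scoped InnerProductSpace ComplexOrder
open Filter Topology

/-- A maximal orthogonal family of peaks of the base algebra, and a larger algebra generated by the
base algebra and unitaries linking every peak of the family to the distinguished one. -/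
structure Setup (A₀ A : Type) [CStarAlgebra A₀] [CStarAlgebra A] where
  I : Type
  τ : I → Peak A₀
  i₀ : I
  orth : ∀ i j, i ≠ j → Peak.Orth (τ i) (τ j)
  maximal : ∀ τ' : Peak A₀, ∃ i, ¬ Peak.Orth τ' (τ i)
  ι : A₀ →⋆ₐ[ℂ] A
  u : I → A
  hu1 : ∀ i, star (u i) * u i = 1
  hu2 : ∀ i, u i * star (u i) = 1
  hu0 : u i₀ = 1
  y : I → ℕ → A₀
  hy1 : ∀ i n, u i * (1 - ι ((τ i).p n)) = ι (y i n)
  hy2 : ∀ i n, (1 - ι ((τ i₀).p n)) * u i = ι (y i n)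
  gen : ∀ S : StarSubalgebra ℂ A, IsClosed (S : Set A) → (∀ a, ι a ∈ S) → (∀ i, u i ∈ S) →
    ∀ b, b ∈ S

namespace Setup

variable {A₀ A : Type} [CStarAlgebra A₀] [CStarAlgebra A] (D : Setup A₀ A)
  {K₁ K₂ : Type*} [NormedAddCommGroup K₁] [InnerProductSpace ℂ K₁] [CompleteSpace K₁]
  [NormedAddCommGroup K₂] [InnerProductSpace ℂ K₂] [CompleteSpace K₂]

lemma hy3 (i : D.I) (n : ℕ) :
    star (D.u i) * (1 - D.ι ((D.τ D.i₀).p n)) = D.ι (star (D.y i n)) := by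
  rw [map_star, ← D.hy2, star_mul, star_sub, star_one, ← map_star, ((D.τ D.i₀).p_sa n).star_eq]

lemma hy4 (i : D.I) (n : ℕ) :
    (1 - D.ι ((D.τ i).p n)) * star (D.u i) = D.ι (star (D.y i n)) := by
  rw [map_star, ← D.hy1, star_mul, star_sub, star_one, ← map_star, ((D.τ i).p_sa n).star_eq]

lemma invariant (σ₁ : A →⋆ₐ[ℂ] (K₁ →L[ℂ] K₁)) (σ₂ : A →⋆ₐ[ℂ] (K₂ →L[ℂ] K₂))
    (M : Submodule ℂ (K₁ × K₂)) (hM : IsClosed (M : Set (K₁ × K₂)))
    (h1 : ∀ a, ∀ z ∈ M, (σ₁ (D.ι a) z.1, σ₂ (D.ι a) z.2) ∈ M)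
    (h2 : ∀ i, ∀ z ∈ M, (σ₁ (D.u i) z.1, σ₂ (D.u i) z.2) ∈ M)
    (h3 : ∀ i, ∀ z ∈ M, (σ₁ (star (D.u i)) z.1, σ₂ (star (D.u i)) z.2) ∈ M) :
    ∀ b, ∀ z ∈ M, (σ₁ b z.1, σ₂ b z.2) ∈ M := by
  let P : A → Prop := fun b => ∀ z ∈ M, (σ₁ b z.1, σ₂ b z.2) ∈ M
  have Pmul : ∀ a b, P a → P b → P (a * b) := fun a b ha hb z hz => by
    rw [rep_mul_apply, rep_mul_apply]
    exact ha _ (hb z hz)
  have Padd : ∀ a b, P a → P b → P (a + b) := fun a b ha hb z hz => by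
    rw [map_add, map_add]
    exact M.add_mem (ha z hz) (hb z hz)
  have Palg : ∀ c : ℂ, P (algebraMap ℂ A c) := fun c z hz => by
    have := M.smul_mem c hz
    rw [AlgHomClass.commutes, AlgHomClass.commutes]
    exact this
  have Pcl : IsClosed {b | P b} := by
    have : {b | P b} = ⋂ z ∈ M, (fun b => (σ₁ b z.1, σ₂ b z.2)) ⁻¹' (M : Set (K₁ × K₂)) := by
      ext b; simp [P]
    rw [this]
    refine isClosed_biInter fun z _ => hM.preimage ?_
    have c1 : Continuous σ₁ := AddMonoidHomClass.continuous_of_bound σ₁ 1 fun a => by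
      rw [one_mul]; exact NonUnitalStarAlgHom.norm_apply_le σ₁ a
    have c2 : Continuous σ₂ := AddMonoidHomClass.continuous_of_bound σ₂ 1 fun a => by
      rw [one_mul]; exact NonUnitalStarAlgHom.norm_apply_le σ₂ a
    fun_prop
  let S : StarSubalgebra ℂ A :=
    { carrier := {b | P b ∧ P (star b)}
      mul_mem' := fun {a b} ha hb => ⟨Pmul a b ha.1 hb.1, by
        rw [star_mul]; exact Pmul _ _ hb.2 ha.2⟩
      add_mem' := fun {a b} ha hb => ⟨Padd a b ha.1 hb.1, by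
        rw [star_add]; exact Padd _ _ ha.2 hb.2⟩
      algebraMap_mem' := fun c => ⟨Palg c, by rw [← algebraMap_star_comm]; exact Palg _⟩
      star_mem' := fun {a} ha => ⟨ha.2, by rw [star_star]; exact ha.1⟩ }
  have hS : IsClosed (S : Set A) := Pcl.inter (Pcl.preimage continuous_star)
  intro b
  exact (D.gen S hS (fun a => ⟨h1 a, by rw [← map_star]; exact h1 _⟩)
    (fun i => ⟨h2 i, h3 i⟩) b).1

lemma fixed_u (σ : A →⋆ₐ[ℂ] (K₁ →L[ℂ] K₁)) (i : D.I) {η : K₁}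
    (h : (D.τ i).Fixed (σ.comp D.ι) η) : (D.τ D.i₀).Fixed (σ.comp D.ι) (σ (D.u i) η) := by
  intro n
  have h1 := congrArg (fun b => σ b η) ((D.hy2 i n).trans (D.hy1 i n).symm)
  have h2 : σ (D.ι ((D.τ i).p n)) η = η := h n
  simp only [rep_mul_apply, map_sub, map_one, sub_apply, one_apply_eq_self, h2, sub_self,
    map_zero] at h1
  exact (sub_eq_zero.mp h1).symm

lemma fixed_star_u (σ : A →⋆ₐ[ℂ] (K₁ →L[ℂ] K₁)) (i : D.I) {η : K₁}
    (h : (D.τ D.i₀).Fixed (σ.comp D.ι) η) :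
    (D.τ i).Fixed (σ.comp D.ι) (σ (star (D.u i)) η) := by
  intro n
  have h1 := congrArg (fun b => σ b η) ((D.hy4 i n).trans (D.hy3 i n).symm)
  have h2 : σ (D.ι ((D.τ D.i₀).p n)) η = η := h n
  simp only [rep_mul_apply, map_sub, map_one, sub_apply, one_apply_eq_self, h2, sub_self,
    map_zero] at h1
  exact (sub_eq_zero.mp h1).symm

/-- If `w (1 - ι (p n)) = ι (y n)` and `p n x` tends to `x'`, then `ι (y n) x` tends to
`w x - w x'`. -/
lemma tendsto_y (σ : A →⋆ₐ[ℂ] (K₁ →L[ℂ] K₁)) {w : A} {p y : ℕ → A₀}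
    (h : ∀ n, w * (1 - D.ι (p n)) = D.ι (y n)) {x x' : K₁}
    (hx : Tendsto (fun n => σ (D.ι (p n)) x) atTop (𝓝 x')) :
    Tendsto (fun n => σ (D.ι (y n)) x) atTop (𝓝 (σ w x - σ w x')) := by
  have e : ∀ n, σ (D.ι (y n)) x = σ w x - σ w (σ (D.ι (p n)) x) := fun n => by
    rw [← h, rep_mul_apply, map_sub, map_one, sub_apply, one_apply_eq_self, map_sub]
  simp only [e]
  exact tendsto_const_nhds.sub (((σ w).continuous.tendsto x').comp hx)

theorem exists_fixed [TopologicalSpace.SeparableSpace A₀] (hA : PInf A₀)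
    (σ : A →⋆ₐ[ℂ] (K₁ →L[ℂ] K₁)) (hσ : Irr σ) [Nontrivial K₁] :
    ∃ η : K₁, ‖η‖ = 1 ∧ (D.τ D.i₀).Fixed (σ.comp D.ι) η := by
  by_contra hcon
  have hno : ∀ i (η : K₁), ‖η‖ = 1 → ¬ (D.τ i).Fixed (σ.comp D.ι) η := fun i η hη h =>
    hcon ⟨_, by rw [norm_rep_isometry σ (D.hu1 i), hη], D.fixed_u σ i h⟩
  have hz : ∀ i x, Tendsto (fun n => σ (D.ι ((D.τ i).p n)) x) atTop (𝓝 0) := fun i x => by
    obtain ⟨y, hy, hyf⟩ := (D.τ i).exists_limit (σ.comp D.ι) x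
    have : y = 0 := by
      by_contra h0
      obtain ⟨η, h1, h2⟩ := hyf.exists_unit h0
      exact hno i η h1 h2
    rw [this] at hy
    exact hy
  have hirr : Irr (σ.comp D.ι) := by
    intro M hM hinv
    refine hσ M hM fun b x hx => ?_
    have key : ∀ {w : A} {p y : ℕ → A₀}, (∀ n, w * (1 - D.ι (p n)) = D.ι (y n)) →
        (∀ x, Tendsto (fun n => σ (D.ι (p n)) x) atTop (𝓝 0)) → ∀ x ∈ M, σ w x ∈ M := by
      intro w p y h hp x hx
      have := D.tendsto_y σ h (hp x)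
      rw [map_zero, sub_zero] at this
      exact hM.mem_of_tendsto this (Eventually.of_forall fun n => hinv _ x hx)
    have := D.invariant σ σ (M.prod ⊤) (hM.prod isClosed_univ)
      (fun a z hz => ⟨hinv a _ hz.1, trivial⟩)
      (fun i z hz' => ⟨key (D.hy1 i) (hz i) _ hz'.1, trivial⟩)
      (fun i z hz' => ⟨key (D.hy3 i) (hz D.i₀) _ hz'.1, trivial⟩) b (x, 0) ⟨hx, trivial⟩
    exact this.1
  obtain ⟨τ', η, hη, hf⟩ := exists_peak hA (σ.comp D.ι) hirr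
  obtain ⟨i, hi⟩ := D.maximal τ'
  obtain ⟨η', h1, h2⟩ := hf.of_not_orth hη hi
  exact hno i η' h1 h2

/-- Two representations with unit vectors fixed by the distinguished peak are linked by a closed
invariant subspace on which both coordinates have the same norm. -/
theorem exists_graph (D : Setup A₀ A) (σ₁ : A →⋆ₐ[ℂ] (K₁ →L[ℂ] K₁))
    (σ₂ : A →⋆ₐ[ℂ] (K₂ →L[ℂ] K₂)) {η₁ : K₁} {η₂ : K₂} (hη₁ : ‖η₁‖ = 1) (hη₂ : ‖η₂‖ = 1)
    (hf₁ : (D.τ D.i₀).Fixed (σ₁.comp D.ι) η₁) (hf₂ : (D.τ D.i₀).Fixed (σ₂.comp D.ι) η₂) :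
    ∃ M : Submodule ℂ (K₁ × K₂), IsClosed (M : Set (K₁ × K₂)) ∧ (η₁, η₂) ∈ M ∧
      (∀ z ∈ M, ‖z.1‖ = ‖z.2‖) ∧ ∀ b, ∀ z ∈ M, (σ₁ b z.1, σ₂ b z.2) ∈ M := by
  let v₁ : D.I → K₁ := fun i => σ₁ (star (D.u i)) η₁
  let v₂ : D.I → K₂ := fun i => σ₂ (star (D.u i)) η₂
  have hv₁ : ∀ i, (D.τ i).Fixed (σ₁.comp D.ι) (v₁ i) := fun i => D.fixed_star_u σ₁ i hf₁
  have hv₂ : ∀ i, (D.τ i).Fixed (σ₂.comp D.ι) (v₂ i) := fun i => D.fixed_star_u σ₂ i hf₂
  have hn₁ : ∀ i, ‖v₁ i‖ = 1 := fun i => by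
    rw [norm_rep_isometry σ₁ (by rw [star_star, D.hu2]), hη₁]
  have hn₂ : ∀ i, ‖v₂ i‖ = 1 := fun i => by
    rw [norm_rep_isometry σ₂ (by rw [star_star, D.hu2]), hη₂]
  have h0₁ : v₁ D.i₀ = η₁ := by simp [v₁, D.hu0]
  have h0₂ : v₂ D.i₀ = η₂ := by simp [v₂, D.hu0]
  have hu₁ : ∀ i, σ₁ (D.u i) (v₁ i) = v₁ D.i₀ := fun i => by
    rw [h0₁, ← rep_mul_apply, D.hu2, map_one, one_apply_eq_self]
  have hu₂ : ∀ i, σ₂ (D.u i) (v₂ i) = v₂ D.i₀ := fun i => by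
    rw [h0₂, ← rep_mul_apply, D.hu2, map_one, one_apply_eq_self]
  have hlim : ∀ i j (a : A₀), ∃ c : ℂ,
      Tendsto (fun n => σ₁ (D.ι ((D.τ i).p n)) (σ₁ (D.ι a) (v₁ j))) atTop (𝓝 (c • v₁ i)) ∧
      Tendsto (fun n => σ₂ (D.ι ((D.τ i).p n)) (σ₂ (D.ι a) (v₂ j))) atTop (𝓝 (c • v₂ i)) := by
    intro i j a
    by_cases hij : j = i
    · subst hij
      exact ⟨(D.τ j).φ a, (hv₁ j).tendsto_self a, (hv₂ j).tendsto_self a⟩
    · refine ⟨0, ?_, ?_⟩
      · rw [zero_smul]; exact (hv₁ j).tendsto_orth (D.orth j i hij) a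
      · rw [zero_smul]; exact (hv₂ j).tendsto_orth (D.orth j i hij) a
  let G : Set (K₁ × K₂) := {z | ∃ i a, z = (σ₁ (D.ι a) (v₁ i), σ₂ (D.ι a) (v₂ i))}
  let M := (Submodule.span ℂ G).topologicalClosure
  have hM : IsClosed (M : Set (K₁ × K₂)) := Submodule.isClosed_topologicalClosure _
  have hGM : ∀ i a, (σ₁ (D.ι a) (v₁ i), σ₂ (D.ι a) (v₂ i)) ∈ M := fun i a =>
    Submodule.le_topologicalClosure _ (Submodule.subset_span ⟨i, a, rfl⟩)
  have hvM : ∀ i, (v₁ i, v₂ i) ∈ M := fun i => by simpa using hGM i 1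
  have hext : ∀ b : A, (∀ i a, (σ₁ b (σ₁ (D.ι a) (v₁ i)), σ₂ b (σ₂ (D.ι a) (v₂ i))) ∈ M) →
      ∀ z ∈ M, (σ₁ b z.1, σ₂ b z.2) ∈ M := by
    intro b hb z hz
    let T : K₁ × K₂ →L[ℂ] K₁ × K₂ := (σ₁ b).prodMap (σ₂ b)
    have hle : M ≤ M.comap (T : K₁ × K₂ →ₗ[ℂ] K₁ × K₂) := by
      refine Submodule.topologicalClosure_minimal _ ?_ (hM.preimage T.continuous)
      rw [Submodule.span_le]
      rintro _ ⟨i, a, rfl⟩
      exact hb i a
    exact hle hz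
  have hι : ∀ a, ∀ z ∈ M, (σ₁ (D.ι a) z.1, σ₂ (D.ι a) z.2) ∈ M := fun a =>
    hext _ fun i b => by
      rw [← rep_mul_apply σ₁ (D.ι a), ← rep_mul_apply σ₂ (D.ι a), ← map_mul]
      exact hGM i _
  have key : ∀ {w : A} {y : ℕ → A₀} (i : D.I), (∀ n, w * (1 - D.ι ((D.τ i).p n)) = D.ι (y n)) →
      (σ₁ w (v₁ i), σ₂ w (v₂ i)) ∈ M → ∀ z ∈ M, (σ₁ w z.1, σ₂ w z.2) ∈ M := by
    intro w y i h hw
    refine hext w fun j a => ?_
    obtain ⟨c, hc₁, hc₂⟩ := hlim i j a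
    have t₁ := D.tendsto_y σ₁ h hc₁
    have t₂ := D.tendsto_y σ₂ h hc₂
    have m1 := hM.mem_of_tendsto (t₁.prodMk_nhds t₂)
      (Eventually.of_forall fun n => hι (y n) _ (hGM j a))
    have m2 := M.add_mem m1 (M.smul_mem c hw)
    simpa using m2
  refine ⟨M, hM, by rw [← h0₁, ← h0₂]; exact hvM _, ?_, ?_⟩
  · exact
    (norm_eq_of_mem_closure_span G (by
      rintro _ ⟨i, a, rfl⟩ _ ⟨j, b, rfl⟩
      obtain ⟨c, hc₁, hc₂⟩ := hlim i j (star a * b)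
      have e₁ := (hv₁ i).inner_eq hc₁
      have e₂ := (hv₂ i).inner_eq hc₂
      rw [inner_smul_right, inner_self_eq_norm_sq_to_K, hn₁] at e₁
      rw [inner_smul_right, inner_self_eq_norm_sq_to_K, hn₂] at e₂
      simp only
      rw [inner_rep_left σ₁ (D.ι a), inner_rep_left σ₂ (D.ι a),
        ← rep_mul_apply σ₁ (star (D.ι a)), ← rep_mul_apply σ₂ (star (D.ι a)), ← map_star,
        ← map_mul, e₁, e₂]))
  · exact (D.invariant σ₁ σ₂ M hM hι
      (fun i => key i (D.hy1 i) (by rw [hu₁, hu₂]; exact hvM _))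
      (fun i => key D.i₀ (D.hy3 i) (by rw [h0₁, h0₂]; exact hvM i)))

theorem equivalent (D : Setup A₀ A) [TopologicalSpace.SeparableSpace A₀] (hA : PInf A₀)
    (σ₁ : A →⋆ₐ[ℂ] (K₁ →L[ℂ] K₁)) (σ₂ : A →⋆ₐ[ℂ] (K₂ →L[ℂ] K₂)) (h₁ : Irr σ₁) (h₂ : Irr σ₂)
    [Nontrivial K₁] [Nontrivial K₂] :
    ∃ U : K₁ ≃ₗᵢ[ℂ] K₂, ∀ a x, U (σ₁ a x) = σ₂ a (U x) := by
  obtain ⟨η₁, hη₁, hf₁⟩ := exists_fixed D hA σ₁ h₁
  obtain ⟨η₂, hη₂, hf₂⟩ := exists_fixed D hA σ₂ h₂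
  obtain ⟨M, hM, hmem, hn, hinv⟩ := D.exists_graph σ₁ σ₂ hη₁ hη₂ hf₁ hf₂
  obtain ⟨U, -, hU⟩ := graph h₁ h₂ M hM
    (by
      intro h0
      rw [h0, Submodule.mem_bot, Prod.mk_eq_zero] at hmem
      rw [hmem.1] at hη₁
      simp at hη₁) hn hinv
  exact ⟨U, hU⟩

/-- A cyclic unit vector fixed by the distinguished peak forces irreducibility. -/
theorem irr_of_cyclic (D : Setup A₀ A) (σ : A →⋆ₐ[ℂ] (K₁ →L[ℂ] K₁)) {Ω : K₁} (hΩ : ‖Ω‖ = 1)
    (hf : (D.τ D.i₀).Fixed (σ.comp D.ι) Ω) (hcyc : DenseRange fun b => σ b Ω) : Irr σ := by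
  intro N hN hinv
  have : CompleteSpace N := hN.completeSpace_coe
  have hinv' : ∀ b, ∀ x ∈ Nᗮ, σ b x ∈ Nᗮ := fun b x hx => by
    rw [Submodule.mem_orthogonal]
    intro u hu
    rw [inner_rep_right]
    exact (Submodule.mem_orthogonal N x).mp hx _ (hinv _ u hu)
  obtain ⟨y, hy, z, hz, e⟩ := N.exists_add_mem_mem_orthogonal Ω
  have hproj : ∀ b, Nᗮ.starProjection (σ b Ω) = σ b z := fun b => by
    refine Submodule.eq_starProjection_of_mem_orthogonal (hinv' b z hz) ?_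
    rw [e, map_add, add_sub_cancel_right]
    exact Submodule.le_orthogonal_orthogonal N (hinv b y hy)
  have htop : ∀ P : Submodule ℂ K₁, IsClosed (P : Set K₁) → (∀ b, σ b Ω ∈ P) → P = ⊤ :=
    fun P hP h => eq_top_iff.mpr fun x _ => hcyc.induction_on x hP h
  by_cases hz0 : z = 0
  · right
    refine htop N hN fun b => hinv b _ ?_
    rw [e, hz0, add_zero]; exact hy
  left
  have hzf : (D.τ D.i₀).Fixed (σ.comp D.ι) z := fun n => by
    have h1 := hproj (D.ι ((D.τ D.i₀).p n))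
    have h2 : σ (D.ι ((D.τ D.i₀).p n)) Ω = Ω := hf n
    have h3 := hproj 1
    rw [map_one, one_apply_eq_self, one_apply_eq_self] at h3
    rw [h2, h3] at h1
    exact h1.symm
  have hzn : ‖z‖ ≠ 0 := norm_ne_zero_iff.mpr hz0
  obtain ⟨M, -, hmem, hn, hM⟩ := D.exists_graph σ σ hΩ
    (η₂ := ((‖z‖⁻¹ : ℝ) : ℂ) • z) (by
      rw [norm_smul, Complex.norm_real, norm_inv, norm_norm, inv_mul_cancel₀ hzn]) hf (hzf.smul _)
  have hall : ∀ x, ‖x‖ = ‖z‖⁻¹ * ‖Nᗮ.starProjection x‖ := fun x => by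
    refine hcyc.induction_on (p := fun x => ‖x‖ = ‖z‖⁻¹ * ‖Nᗮ.starProjection x‖) x
      (isClosed_eq (by fun_prop) (by fun_prop)) fun b => ?_
    have := hn _ (hM b _ hmem)
    simp only at this
    rw [this, map_smul, norm_smul, Complex.norm_real, norm_inv, norm_norm, hproj]
  rw [Submodule.eq_bot_iff]
  intro x hx
  have h1 := hall x
  rw [Submodule.starProjection_orthogonal_apply_eq_zero hx, norm_zero, mul_zero] at h1
  exact norm_eq_zero.mp h1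

/-- A representation with a unit vector fixed by the distinguished peak has an irreducible
subrepresentation. -/
theorem exists_irr (D : Setup A₀ A) {H : Type} [NormedAddCommGroup H] [InnerProductSpace ℂ H]
    [CompleteSpace H] (π : A →⋆ₐ[ℂ] (H →L[ℂ] H)) {Ω : H} (hΩ : ‖Ω‖ = 1)
    (hf : (D.τ D.i₀).Fixed (π.comp D.ι) Ω) :
    ∃ (K : Type) (_ : NormedAddCommGroup K) (_ : InnerProductSpace ℂ K) (_ : CompleteSpace K)
      (σ : A →⋆ₐ[ℂ] (K →L[ℂ] K)), Nontrivial K ∧ Irr σ := by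
  let L : A →ₗ[ℂ] H :=
    { toFun := fun b => π b Ω
      map_add' := fun a b => by simp
      map_smul' := fun c a => by simp }
  let K : Submodule ℂ H := (LinearMap.range L).topologicalClosure
  have hK : IsClosed (K : Set H) := Submodule.isClosed_topologicalClosure _
  have : CompleteSpace K := hK.completeSpace_coe
  have hLK : ∀ b, π b Ω ∈ K := fun b => Submodule.le_topologicalClosure _ ⟨b, rfl⟩
  have hΩK : Ω ∈ K := by simpa using hLK 1
  have hinv : ∀ b, ∀ x ∈ K, π b x ∈ K := fun b x hx => by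
    refine map_mem_closure (f := π b) (π b).continuous hx ?_
    rintro _ ⟨a, rfl⟩
    exact ⟨b * a, rep_mul_apply π b a Ω⟩
  let σ : A →⋆ₐ[ℂ] (K →L[ℂ] K) :=
    { toFun := fun b => (π b).restrict (hinv b)
      map_one' := by ext x; simp
      map_mul' := fun a b => by ext x; simp
      map_zero' := by ext x; simp
      map_add' := fun a b => by ext x; simp
      commutes' := fun c => by ext x; simp [Algebra.algebraMap_eq_smul_one]
      map_star' := fun a => by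
        rw [ContinuousLinearMap.star_eq_adjoint, ContinuousLinearMap.eq_adjoint_iff]
        intro x y
        exact (inner_rep_right π a (x : H) (y : H)).symm }
  refine ⟨K, inferInstance, inferInstance, inferInstance, σ, ⟨⟨⟨Ω, hΩK⟩, 0, fun h => ?_⟩⟩,
    D.irr_of_cyclic σ (Ω := ⟨Ω, hΩK⟩) hΩ (fun n => Subtype.ext (hf n)) ?_⟩
  · have h1 : Ω = 0 := congrArg Subtype.val h
    rw [h1] at hΩ
    simp at hΩ
  · rw [Metric.denseRange_iff]
    intro x ε hε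
    obtain ⟨_, ⟨b, rfl⟩, hb⟩ := Metric.mem_closure_iff.mp x.2 ε hε
    exact ⟨b, hb⟩

end Setup

end Vale.Agent.P070
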